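import Vale.Agent.P372.BF.Blocks

open Matrix Kronecker
open scoped ComplexOrder MatrixOrder

set_option linter.unusedSectionVars false

namespace Vale.Agent.P372.H795

open Vale.Agent.P372 Vale.Agent.P372.BF

variable {A B : Type} [Fintype A] [DecidableEq A] [Fintype B] [DecidableEq B]

/-- `M` on Alice's system and the first copy of Bob's system. -/
def e12 (M : Matrix (A × B) (A × B) ℂ) : Matrix (A × B × B) (A × B × B) ℂ :=
  (M ⊗ₖ (1 : Matrix B B ℂ)).submatrix (Equiv.prodAssoc A B B).symm (Equiv.prodAssoc A B B).symm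

/-- Exchange of the two copies of Bob's system. -/
def sw : (A × B × B) ≃ (A × B × B) where
  toFun p := (p.1, p.2.2, p.2.1)
  invFun p := (p.1, p.2.2, p.2.1)
  left_inv _ := rfl
  right_inv _ := rfl

/-- `M` on Alice's system and the second copy of Bob's system. -/
def e13 (M : Matrix (A × B) (A × B) ℂ) : Matrix (A × B × B) (A × B × B) ℂ :=
  (e12 M).submatrix sw sw

theorem e12_apply (M : Matrix (A × B) (A × B) ℂ) (p q : A × B × B) :
    e12 M p q = M (p.1, p.2.1) (q.1, q.2.1) * if p.2.2 = q.2.2 then 1 else 0 := by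
  simp only [e12, submatrix_apply, kroneckerMap_apply, Matrix.one_apply]
  rfl

theorem e13_apply (M : Matrix (A × B) (A × B) ℂ) (p q : A × B × B) :
    e13 M p q = M (p.1, p.2.2) (q.1, q.2.2) * if p.2.1 = q.2.1 then 1 else 0 := by
  rw [e13, submatrix_apply, e12_apply]
  rfl

theorem e12_mul (M N : Matrix (A × B) (A × B) ℂ) : e12 (M * N) = e12 M * e12 N := by
  rw [e12, e12, e12, submatrix_mul_equiv, ← mul_kronecker_mul, one_mul]

theorem e13_mul (M N : Matrix (A × B) (A × B) ℂ) : e13 (M * N) = e13 M * e13 N := by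
  rw [e13, e13, e13, submatrix_mul_equiv, ← e12_mul]

theorem e12_conj (M : Matrix (A × B) (A × B) ℂ) : (e12 M)ᴴ = e12 Mᴴ := by
  rw [e12, e12, conjTranspose_submatrix, conjTranspose_kronecker, conjTranspose_one]

theorem e13_conj (M : Matrix (A × B) (A × B) ℂ) : (e13 M)ᴴ = e13 Mᴴ := by
  rw [e13, e13, conjTranspose_submatrix, e12_conj]

theorem e12_psd {M : Matrix (A × B) (A × B) ℂ} (h : M.PosSemidef) : (e12 M).PosSemidef :=
  (h.kronecker PosSemidef.one).submatrix _

theorem e13_psd {M : Matrix (A × B) (A × B) ℂ} (h : M.PosSemidef) : (e13 M).PosSemidef :=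
  (e12_psd h).submatrix _

theorem sub_sw (M : Matrix (A × B × B) (A × B × B) ℂ) :
    (M.submatrix sw sw).submatrix sw sw = M := rfl

theorem e13_sw (M : Matrix (A × B) (A × B) ℂ) : (e13 M).submatrix sw sw = e12 M := rfl

theorem e12_sw (M : Matrix (A × B) (A × B) ℂ) : (e12 M).submatrix sw sw = e13 M := rfl

theorem mul_sw (M N : Matrix (A × B × B) (A × B × B) ℂ) :
    (M * N).submatrix sw sw = M.submatrix sw sw * N.submatrix sw sw := by
  rw [submatrix_mul_equiv]

/-- Partial trace over the second copy of Bob's system. -/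
def t3 (L : Matrix (A × B × B) (A × B × B) ℂ) : Matrix (A × B) (A × B) ℂ :=
  fun p q => ∑ c, L (p.1, p.2, c) (q.1, q.2, c)

/-- Partial trace over Bob's system. -/
def ptr (M : Matrix (A × B) (A × B) ℂ) : Matrix A A ℂ := fun a a' => ∑ b, M (a, b) (a', b)

theorem e12_mul_apply (X : Matrix (A × B) (A × B) ℂ) (L : Matrix (A × B × B) (A × B × B) ℂ)
    (p q : A × B × B) :
    (e12 X * L) p q = ∑ r : A × B, X (p.1, p.2.1) r * L (r.1, r.2, p.2.2) q := by
  rw [Matrix.mul_apply, ← (Equiv.prodAssoc A B B).sum_comp, Fintype.sum_prod_type]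
  refine Finset.sum_congr rfl fun r _ => ?_
  rw [Finset.sum_eq_single p.2.2]
  · rw [e12_apply]
    simp [Equiv.prodAssoc]
  · intro c _ hc
    rw [e12_apply]
    simp [Equiv.prodAssoc, Ne.symm hc]
  · simp

theorem mul_e12_apply (X : Matrix (A × B) (A × B) ℂ) (L : Matrix (A × B × B) (A × B × B) ℂ)
    (p q : A × B × B) :
    (L * e12 X) p q = ∑ r : A × B, L p (r.1, r.2, q.2.2) * X r (q.1, q.2.1) := by
  rw [Matrix.mul_apply, ← (Equiv.prodAssoc A B B).sum_comp, Fintype.sum_prod_type]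
  refine Finset.sum_congr rfl fun r _ => ?_
  rw [Finset.sum_eq_single q.2.2]
  · rw [e12_apply]
    simp [Equiv.prodAssoc]
  · intro c _ hc
    rw [e12_apply]
    simp [Equiv.prodAssoc, hc]
  · simp

theorem t3_left (X : Matrix (A × B) (A × B) ℂ) (L : Matrix (A × B × B) (A × B × B) ℂ) :
    t3 (e12 X * L) = X * t3 L := by
  ext p q
  rw [Matrix.mul_apply]
  simp only [t3, e12_mul_apply, Finset.mul_sum]
  rw [Finset.sum_comm]

theorem t3_right (X : Matrix (A × B) (A × B) ℂ) (L : Matrix (A × B × B) (A × B × B) ℂ) :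
    t3 (L * e12 X) = t3 L * X := by
  ext p q
  rw [Matrix.mul_apply]
  simp only [t3, mul_e12_apply, Finset.sum_mul]
  rw [Finset.sum_comm]

theorem t3_add (L M : Matrix (A × B × B) (A × B × B) ℂ) : t3 (L + M) = t3 L + t3 M := by
  ext p q
  simp only [t3, Matrix.add_apply, Finset.sum_add_distrib]

theorem t3_smul (x : ℂ) (L : Matrix (A × B × B) (A × B × B) ℂ) : t3 (x • L) = x • t3 L := by
  ext p q
  simp only [t3, Matrix.smul_apply, smul_eq_mul, Finset.mul_sum]

theorem t3_sum {κ : Type} (s : Finset κ) (L : κ → Matrix (A × B × B) (A × B × B) ℂ) :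
    t3 (∑ k ∈ s, L k) = ∑ k ∈ s, t3 (L k) := by
  ext p q
  simp only [t3, Matrix.sum_apply]
  rw [Finset.sum_comm]

theorem t3_zero : t3 (0 : Matrix (A × B × B) (A × B × B) ℂ) = 0 := by
  ext p q
  simp [t3]

/-- `Q` on Bob's system. -/
def onB (Q : Matrix B B ℂ) : Matrix (A × B) (A × B) ℂ := (1 : Matrix A A ℂ) ⊗ₖ Q

/-- `Q` on Alice's system. -/
def onA (Q : Matrix A A ℂ) : Matrix (A × B) (A × B) ℂ := Q ⊗ₖ (1 : Matrix B B ℂ)

theorem onB_mul (P Q : Matrix B B ℂ) :
    (onB (P * Q) : Matrix (A × B) (A × B) ℂ) = onB P * onB Q := by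
  rw [onB, onB, onB, ← mul_kronecker_mul, one_mul]

theorem onA_mul (P Q : Matrix A A ℂ) :
    (onA (P * Q) : Matrix (A × B) (A × B) ℂ) = onA P * onA Q := by
  rw [onA, onA, onA, ← mul_kronecker_mul, one_mul]

theorem onB_conj (Q : Matrix B B ℂ) : (onB Q : Matrix (A × B) (A × B) ℂ)ᴴ = onB Qᴴ := by
  rw [onB, onB, conjTranspose_kronecker, conjTranspose_one]

theorem onA_conj (Q : Matrix A A ℂ) : (onA Q : Matrix (A × B) (A × B) ℂ)ᴴ = onA Qᴴ := by
  rw [onA, onA, conjTranspose_kronecker, conjTranspose_one]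

theorem onA_onB (P : Matrix A A ℂ) (Q : Matrix B B ℂ) : onA P * onB Q = P ⊗ₖ Q := by
  rw [onA, onB, ← mul_kronecker_mul, one_mul, mul_one]

theorem onB_onA (P : Matrix A A ℂ) (Q : Matrix B B ℂ) : onB Q * onA P = P ⊗ₖ Q := by
  rw [onA, onB, ← mul_kronecker_mul, one_mul, mul_one]

theorem e12_onA (Q : Matrix A A ℂ) :
    e12 (onA Q : Matrix (A × B) (A × B) ℂ) = e13 (onA Q) := by
  ext p q
  rw [e12_apply, e13_apply]
  simp only [onA, kroneckerMap_apply, Matrix.one_apply]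
  ring

theorem e13B_mul_apply (Q : Matrix B B ℂ) (L : Matrix (A × B × B) (A × B × B) ℂ)
    (p q : A × B × B) :
    ((e13 (onB Q) : Matrix (A × B × B) (A × B × B) ℂ) * L) p q =
      ∑ c, Q p.2.2 c * L (p.1, p.2.1, c) q := by
  have h : ((e13 (onB Q) : Matrix (A × B × B) (A × B × B) ℂ) * L) p q =
      ((e12 (onB Q) : Matrix (A × B × B) (A × B × B) ℂ) * L.submatrix sw sw) (sw p) (sw q) := by
    rw [← sub_sw L, ← e12_sw, ← mul_sw, sub_sw]
    rfl
  rw [h, e12_mul_apply, Fintype.sum_prod_type, Finset.sum_eq_single p.1]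
  · refine Finset.sum_congr rfl fun c _ => ?_
    simp [onB, sw]
  · intro a _ ha
    refine Finset.sum_eq_zero fun c _ => ?_
    simp only [onB, kroneckerMap_apply, sw, Equiv.coe_fn_mk]
    rw [Matrix.one_apply_ne (Ne.symm ha), zero_mul, zero_mul]
  · simp

theorem mul_e13B_apply (Q : Matrix B B ℂ) (L : Matrix (A × B × B) (A × B × B) ℂ)
    (p q : A × B × B) :
    (L * (e13 (onB Q) : Matrix (A × B × B) (A × B × B) ℂ)) p q =
      ∑ c, L p (q.1, q.2.1, c) * Q c q.2.2 := by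
  have h : (L * (e13 (onB Q) : Matrix (A × B × B) (A × B × B) ℂ)) p q =
      (L.submatrix sw sw * (e12 (onB Q) : Matrix (A × B × B) (A × B × B) ℂ)) (sw p) (sw q) := by
    rw [← sub_sw L, ← e12_sw, ← mul_sw, sub_sw]
    rfl
  rw [h, mul_e12_apply, Fintype.sum_prod_type, Finset.sum_eq_single q.1]
  · refine Finset.sum_congr rfl fun c _ => ?_
    simp [onB, sw]
  · intro a _ ha
    refine Finset.sum_eq_zero fun c _ => ?_
    simp only [onB, kroneckerMap_apply, sw, Equiv.coe_fn_mk]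
    rw [Matrix.one_apply_ne ha, zero_mul, mul_zero]
  · simp

theorem t3_cyc (Q : Matrix B B ℂ) (L : Matrix (A × B × B) (A × B × B) ℂ) :
    t3 (e13 (onB Q) * L) = t3 (L * e13 (onB Q)) := by
  ext p q
  simp only [t3, e13B_mul_apply, mul_e13B_apply]
  rw [Finset.sum_comm]
  refine Finset.sum_congr rfl fun c _ => Finset.sum_congr rfl fun c' _ => ?_
  ring

theorem t3_e13 (M : Matrix (A × B) (A × B) ℂ) : t3 (e13 M) = onA (ptr M) := by
  ext p q
  simp only [t3, e13_apply, onA, kroneckerMap_apply, ptr, Matrix.one_apply]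
  rw [Finset.sum_mul]

/-- Operators on the first copy commute with operators on the second copy. -/
theorem e12_e13B (M : Matrix (A × B) (A × B) ℂ) (Q : Matrix B B ℂ) :
    e12 M * e13 (onB Q) = e13 (onB Q) * e12 M := by
  ext p q
  rw [mul_e13B_apply, e13B_mul_apply]
  simp only [e12_apply]
  have h1 : ∀ c, M (p.1, p.2.1) (q.1, q.2.1) * (if p.2.2 = c then (1 : ℂ) else 0) * Q c q.2.2 =
      if p.2.2 = c then M (p.1, p.2.1) (q.1, q.2.1) * Q c q.2.2 else 0 := by
    intro c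
    split_ifs <;> simp
  have h2 : ∀ c, Q p.2.2 c * (M (p.1, p.2.1) (q.1, q.2.1) * (if c = q.2.2 then (1 : ℂ) else 0)) =
      if q.2.2 = c then M (p.1, p.2.1) (q.1, q.2.1) * Q p.2.2 c else 0 := by
    intro c
    by_cases h : q.2.2 = c
    · rw [if_pos h, if_pos h.symm]
      ring
    · rw [if_neg h, if_neg (Ne.symm h)]
      ring
  simp only [h1, h2, Finset.sum_ite_eq, Finset.mem_univ, if_true]

theorem e13_e12B (M : Matrix (A × B) (A × B) ℂ) (Q : Matrix B B ℂ) :
    e13 M * e12 (onB Q) = e12 (onB Q) * e13 M := by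
  have h := congrArg (fun L : Matrix (A × B × B) (A × B × B) ℂ => L.submatrix sw sw)
    (e12_e13B M Q)
  simp only [mul_sw] at h
  exact h

theorem isExt_of {R : Matrix (A × B) (A × B) ℂ} {Q : Matrix B B ℂ}
    {K : Matrix (A × B × B) (A × B × B) ℂ} (h : K.PosSemidef)
    (h1 : t3 (K * e13 (onB Q)) = R) (h2 : t3 (K.submatrix sw sw * e13 (onB Q)) = R) :
    IsExt R Q K := by
  refine ⟨h, ?_, ?_⟩
  · intro a b a' b'
    rw [← h1]
    simp only [t3, mul_e13B_apply]
  · intro a b a' b'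
    rw [← h2]
    simp only [t3, mul_e13B_apply]
    rfl

theorem ptr_onB (Q : Matrix B B ℂ) : ptr (onB Q : Matrix (A × B) (A × B) ℂ) = Q.trace • 1 := by
  ext a a'
  simp only [ptr, onB, kroneckerMap_apply, Matrix.smul_apply, smul_eq_mul, Matrix.trace,
    Matrix.diag, Finset.sum_mul]
  refine Finset.sum_congr rfl fun b _ => ?_
  ring

theorem onA_smul_one (x : ℂ) : (onA (x • (1 : Matrix A A ℂ)) : Matrix (A × B) (A × B) ℂ) =
    x • 1 := by
  rw [onA, smul_kronecker, one_kronecker_one]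

/-- From a symmetric extension of the filtered operator to an extension relative to the filter. -/
theorem lift {R : Matrix (A × B) (A × B) ℂ} {lo : ℝ} (hlo : 0 < lo)
    (hR : (R - (lo : ℂ) • 1).PosSemidef) {P : Matrix B B ℂ} (hP : Pᴴ = P) (hPP : P * P = P)
    {τ : ℝ} (hτ : 0 < τ) (hPτ : P.trace = (τ : ℂ)) {Ω : Matrix (A × B × B) (A × B × B) ℂ}
    (hΩ : Ω.PosSemidef) (hs : Ω.submatrix sw sw = Ω) (hΩP : e13 (onB P) * Ω = Ω)
    (hm : t3 Ω = onB P * R * onB P) : ∃ K, IsExt R P K := by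
  obtain ⟨J, hJ⟩ : ∃ J : Matrix (A × B) (A × B) ℂ, J = onB P := ⟨_, rfl⟩
  have hJh : Jᴴ = J := by rw [hJ, onB_conj, hP]
  have hJJ : J * J = J := by rw [hJ, ← onB_mul, hPP]
  have hRp : R.PosSemidef := by
    have h : R = (R - (lo : ℂ) • 1) + (lo : ℂ) • (1 : Matrix _ _ ℂ) := by abel
    rw [h]
    exact hR.add (PosSemidef.one.smul (by exact_mod_cast hlo.le))
  have hRh : Rᴴ = R := hRp.1
  rw [← hJ] at hm
  obtain ⟨S, hS⟩ : ∃ S, S = J * R * J := ⟨_, rfl⟩
  rw [← hS] at hm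
  -- the operator on the range of the projection, completed to an invertible operator
  obtain ⟨N, hN⟩ : ∃ N, N = S + (1 - J) := ⟨_, rfl⟩
  have hN1 : N * J = S := by
    rw [hN, hS, Matrix.add_mul, Matrix.sub_mul, Matrix.one_mul, hJJ, sub_self, add_zero,
      Matrix.mul_assoc, hJJ]
  have hN2 : J * N = S := by
    rw [hN, hS, Matrix.mul_add, Matrix.mul_sub, Matrix.mul_one, hJJ, sub_self, add_zero,
      ← Matrix.mul_assoc, ← Matrix.mul_assoc, hJJ]
  have hNpos : N.PosDef := by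
    obtain ⟨m, hm0⟩ : ∃ m, m = min lo 1 := ⟨_, rfl⟩
    have m0 : 0 < m := by rw [hm0]; exact lt_min hlo one_pos
    have m1 : m ≤ lo := by rw [hm0]; exact min_le_left _ _
    have m2 : m ≤ 1 := by rw [hm0]; exact min_le_right _ _
    have c1 : (Jᴴ * (R - (lo : ℂ) • 1) * J).PosSemidef := hR.conjTranspose_mul_mul_same _
    have c2 : (((lo - m : ℝ) : ℂ) • (Jᴴ * J)).PosSemidef :=
      (posSemidef_conjTranspose_mul_self J).smul (by exact_mod_cast sub_nonneg.mpr m1)
    have c3 : (((1 - m : ℝ) : ℂ) • ((1 - J)ᴴ * (1 - J))).PosSemidef :=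
      (posSemidef_conjTranspose_mul_self (1 - J)).smul (by exact_mod_cast sub_nonneg.mpr m2)
    have e : N = (m : ℂ) • (1 : Matrix (A × B) (A × B) ℂ) + (Jᴴ * (R - (lo : ℂ) • 1) * J +
        ((lo - m : ℝ) : ℂ) • (Jᴴ * J) + ((1 - m : ℝ) : ℂ) • ((1 - J)ᴴ * (1 - J))) := by
      rw [hN, hS, conjTranspose_sub, conjTranspose_one, hJh]
      have e2 : (1 - J) * (1 - J) = 1 - J := by
        rw [Matrix.sub_mul, Matrix.mul_sub, Matrix.mul_sub, hJJ]
        simp
      rw [e2, hJJ, Matrix.mul_sub, Matrix.sub_mul, Matrix.mul_smul, Matrix.smul_mul,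
        Matrix.mul_one, hJJ]
      push_cast
      module
    rw [e]
    exact (PosDef.one.smul (by exact_mod_cast m0)).add_posSemidef ((c1.add c2).add c3)
  have hdet : IsUnit N.det := (Matrix.isUnit_iff_isUnit_det _).mp hNpos.isUnit
  obtain ⟨Ni, hNi⟩ : ∃ Ni, Ni = N⁻¹ := ⟨_, rfl⟩
  have n1 : N * Ni = 1 := by rw [hNi]; exact Matrix.mul_nonsing_inv _ hdet
  have n2 : Ni * N = 1 := by rw [hNi]; exact Matrix.nonsing_inv_mul _ hdet
  have n3 : Ni * J = J * Ni := by
    calc Ni * J = Ni * J * (N * Ni) := by rw [n1, Matrix.mul_one]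
      _ = Ni * (J * N) * Ni := by simp only [Matrix.mul_assoc]
      _ = Ni * (N * J) * Ni := by rw [hN1, hN2]
      _ = (Ni * N) * J * Ni := by simp only [Matrix.mul_assoc]
      _ = J * Ni := by rw [n2, Matrix.one_mul]
  have hNh : Nᴴ = N := hNpos.1
  have n4 : Niᴴ = Ni := by
    have h1 : Niᴴ * N = 1 := by
      have := congrArg conjTranspose n1
      rwa [conjTranspose_mul, hNh, conjTranspose_one] at this
    calc Niᴴ = Niᴴ * (N * Ni) := by rw [n1, Matrix.mul_one]
      _ = (Niᴴ * N) * Ni := by rw [Matrix.mul_assoc]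
      _ = Ni := by rw [h1, Matrix.one_mul]
  obtain ⟨Y, hY⟩ : ∃ Y, Y = Ni * J := ⟨_, rfl⟩
  have y1 : Yᴴ = Y := by rw [hY, conjTranspose_mul, n4, hJh, n3]
  have y2 : Y * J = Y := by rw [hY, Matrix.mul_assoc, hJJ]
  have y3 : J * Y = Y := by rw [hY, n3, ← Matrix.mul_assoc, hJJ]
  have y4 : S * Y = J := by
    rw [← hN2, hY, n3]
    calc J * N * (J * Ni) = J * (N * J) * Ni := by simp only [Matrix.mul_assoc]
      _ = J * (J * N) * Ni := by rw [hN1, hN2]
      _ = (J * J) * (N * Ni) := by simp only [Matrix.mul_assoc]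
      _ = J := by rw [hJJ, n1, Matrix.mul_one]
  have y5 : Y * S = J := by
    have h := congrArg conjTranspose y4
    have hSh : Sᴴ = S := by
      rw [hS, conjTranspose_mul, conjTranspose_mul, hJh, hRh, Matrix.mul_assoc]
    rwa [conjTranspose_mul, y1, hSh, hJh] at h
  have y6 : J * R * Y = J := by
    calc J * R * Y = J * R * (J * Y) := by rw [y3]
      _ = S * Y := by rw [hS]; simp only [Matrix.mul_assoc]
      _ = J := y4
  have y7 : Y * R * J = J := by
    calc Y * R * J = (Y * J) * R * J := by rw [y2]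
      _ = Y * S := by rw [hS]; simp only [Matrix.mul_assoc]
      _ = J := y5
  have y8 : Y * R * Y = Y := by
    calc Y * R * Y = Y * R * (J * Y) := by rw [y3]
      _ = (Y * R * J) * Y := by simp only [Matrix.mul_assoc]
      _ = Y := by rw [y7, y3]
  obtain ⟨X, hX⟩ : ∃ X, X = R * Y := ⟨_, rfl⟩
  have x1 : J * X = J := by rw [hX, ← Matrix.mul_assoc, y6]
  have x2 : Xᴴ * J = J := by
    have := congrArg conjTranspose x1
    rwa [conjTranspose_mul, hJh] at this
  have x3 : X * S * Xᴴ = R * Y * R := by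
    rw [hX, conjTranspose_mul, y1, hRh]
    calc R * Y * S * (Y * R) = R * (Y * S) * Y * R := by simp only [Matrix.mul_assoc]
      _ = R * (J * Y) * R := by rw [y5]; simp only [Matrix.mul_assoc]
      _ = R * Y * R := by rw [y3]
  obtain ⟨D, hD⟩ : ∃ D, D = R - R * Y * R := ⟨_, rfl⟩
  have d1 : D.PosSemidef := by
    have e : D = (1 - Y * R)ᴴ * R * (1 - Y * R) := by
      rw [conjTranspose_sub, conjTranspose_one, conjTranspose_mul, y1, hRh, hD]
      have e1 : R * Y * R * (Y * R) = R * Y * R := by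
        calc R * Y * R * (Y * R) = R * (Y * R * Y) * R := by simp only [Matrix.mul_assoc]
          _ = R * Y * R := by rw [y8]
      have e2 : R * (Y * R) = R * Y * R := by rw [Matrix.mul_assoc]
      rw [Matrix.sub_mul 1 (R * Y) R, Matrix.one_mul, Matrix.mul_sub, Matrix.mul_one,
        Matrix.sub_mul R (R * Y * R) (Y * R), e1, e2]
      abel
    rw [e]
    exact hRp.conjTranspose_mul_mul_same _
  have d2 : D * J = 0 := by
    rw [hD, Matrix.sub_mul]
    have e1 : R * Y * R * J = R * (Y * R * J) := by simp only [Matrix.mul_assoc]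
    rw [e1, y7, sub_self]
  -- the first part
  have part1 : ∀ V : Matrix (A × B × B) (A × B × B) ℂ, e13 J * V = e12 X * e13 J →
      t3 (V * Ω * Vᴴ * e13 J) = R * Y * R := by
    intro V hV
    have hE : (e13 J)ᴴ = e13 J := by rw [e13_conj, hJh]
    have hV' : Vᴴ * e13 J = e13 J * (e12 X)ᴴ := by
      have := congrArg conjTranspose hV
      rwa [conjTranspose_mul, conjTranspose_mul, hE] at this
    have hEE : e13 J * e13 J = e13 J := by rw [← e13_mul, hJJ]
    have hΩP' : Ω * e13 J = Ω := by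
      rw [← hJ] at hΩP
      have := congrArg conjTranspose hΩP
      rwa [conjTranspose_mul, hΩ.1, hE] at this
    have h1 : t3 (V * Ω * Vᴴ * e13 J) = t3 (e13 J * (V * Ω * Vᴴ * e13 J)) := by
      rw [hJ, t3_cyc, Matrix.mul_assoc (V * Ω * Vᴴ), ← hJ, hEE]
    have h2 : e13 J * (V * Ω * Vᴴ * e13 J) = e12 X * (Ω * (e12 X)ᴴ) := by
      calc e13 J * (V * Ω * Vᴴ * e13 J) = (e13 J * V) * Ω * (Vᴴ * e13 J) := by
            simp only [Matrix.mul_assoc]
        _ = e12 X * e13 J * Ω * (e13 J * (e12 X)ᴴ) := by rw [hV, hV']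
        _ = e12 X * ((e13 J * Ω) * e13 J) * (e12 X)ᴴ := by simp only [Matrix.mul_assoc]
        _ = e12 X * (Ω * (e12 X)ᴴ) := by
            rw [← hJ] at hΩP
            rw [hΩP, hΩP', Matrix.mul_assoc]
    rw [h1, h2, t3_left, e12_conj, t3_right, hm, ← Matrix.mul_assoc, x3]
  -- the second part
  obtain ⟨T1, hT1⟩ : ∃ T1, T1 = (e13 J)ᴴ * e12 D * e13 J := ⟨_, rfl⟩
  obtain ⟨T2, hT2⟩ : ∃ T2, T2 = (e12 J)ᴴ * e13 D * e12 J := ⟨_, rfl⟩
  have hT12 : T1.submatrix sw sw = T2 := by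
    rw [hT1, hT2, mul_sw, mul_sw, e12_sw, e13_sw, e13_conj, e12_conj, e13_sw]
  have hT21 : T2.submatrix sw sw = T1 := by rw [← hT12, sub_sw]
  have part2 : t3 (T1 * e13 J) = (τ : ℂ) • D := by
    have h : T1 * e13 J = e12 D * e13 J := by
      rw [hT1, e13_conj, hJh]
      calc e13 J * e12 D * e13 J * e13 J = (e13 J * e12 D) * (e13 J * e13 J) := by
            simp only [Matrix.mul_assoc]
        _ = (e12 D * e13 J) * e13 J := by rw [← e13_mul, hJJ, hJ, e12_e13B]
        _ = e12 D * e13 J := by rw [Matrix.mul_assoc, ← e13_mul, hJJ]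
    rw [h, t3_left, t3_e13, hJ, ptr_onB, onA_smul_one, hPτ, Matrix.mul_smul, Matrix.mul_one]
  have part3 : T2 * e13 J = 0 := by
    rw [hT2]
    calc (e12 J)ᴴ * e13 D * e12 J * e13 J = (e12 J)ᴴ * e13 D * (e12 J * e13 J) := by
          simp only [Matrix.mul_assoc]
      _ = (e12 J)ᴴ * e13 D * (e13 J * e12 J) := by rw [hJ, e12_e13B]
      _ = (e12 J)ᴴ * (e13 D * e13 J) * e12 J := by simp only [Matrix.mul_assoc]
      _ = 0 := by
          rw [← e13_mul, d2]
          have : e13 (0 : Matrix (A × B) (A × B) ℂ) = 0 := by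
            ext p q
            rw [e13_apply]
            simp
          rw [this, Matrix.mul_zero, Matrix.zero_mul]
  obtain ⟨V, hV⟩ : ∃ V, V = e12 X * e13 X := ⟨_, rfl⟩
  have v1 : e13 J * V = e12 X * e13 J := by
    rw [hV, ← Matrix.mul_assoc, hJ, ← e12_e13B, ← hJ, Matrix.mul_assoc, ← e13_mul, x1]
  have v2 : e13 J * V.submatrix sw sw = e12 X * e13 J := by
    rw [hV, mul_sw, e12_sw, e13_sw, ← Matrix.mul_assoc, ← e13_mul, x1, hJ, e12_e13B]
  have hτc : ((τ⁻¹ : ℝ) : ℂ) * (τ : ℂ) = 1 := by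
    rw [← Complex.ofReal_mul, inv_mul_cancel₀ hτ.ne', Complex.ofReal_one]
  refine ⟨V * Ω * Vᴴ + ((τ⁻¹ : ℝ) : ℂ) • (T1 + T2), isExt_of ?_ ?_ ?_⟩
  · refine (hΩ.mul_mul_conjTranspose_same V).add (PosSemidef.smul ?_
      (by exact_mod_cast (inv_pos.mpr hτ).le))
    refine PosSemidef.add ?_ ?_
    · rw [hT1]
      exact (e12_psd d1).conjTranspose_mul_mul_same _
    · rw [hT2]
      exact (e13_psd d1).conjTranspose_mul_mul_same _
  · rw [← hJ, Matrix.add_mul, t3_add, part1 V v1, Matrix.smul_mul, t3_smul, Matrix.add_mul,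
      t3_add, part2, part3, t3_zero, add_zero, smul_smul, hτc, one_smul, hD]
    abel
  · have e : (V * Ω * Vᴴ + ((τ⁻¹ : ℝ) : ℂ) • (T1 + T2)).submatrix sw sw =
        V.submatrix sw sw * Ω * (V.submatrix sw sw)ᴴ + ((τ⁻¹ : ℝ) : ℂ) • (T2 + T1) := by
      have e0 : (V * Ω * Vᴴ + ((τ⁻¹ : ℝ) : ℂ) • (T1 + T2)).submatrix sw sw =
          (V * Ω * Vᴴ).submatrix sw sw +
            ((τ⁻¹ : ℝ) : ℂ) • (T1.submatrix sw sw + T2.submatrix sw sw) := rfl
      rw [e0, mul_sw, mul_sw, hs, hT12, hT21, ← conjTranspose_submatrix]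
    rw [e, ← hJ, Matrix.add_mul, t3_add, part1 _ v2, Matrix.smul_mul, t3_smul, Matrix.add_mul,
      t3_add, part2, part3, t3_zero, zero_add, smul_smul, hτc, one_smul, hD]
    abel

end Vale.Agent.P372.H795
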