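import Vale.Agent.P372.H23.Swap
import Vale.Agent.P372.H795.Lift

open Matrix Kronecker
open scoped ComplexOrder MatrixOrder

set_option linter.unusedSectionVars false

namespace Vale.Agent.P372.H795

open Vale.Agent.P372 Vale.Agent.P372.BF Vale.Agent.P372.H23

variable {A B : Type} [Fintype A] [DecidableEq A] [Fintype B] [DecidableEq B]

/-- `u` or its adjoint. -/
def tw (b : Bool) (u : Matrix B B ℂ) : Matrix B B ℂ := if b then u else uᴴ

/-- The unitaries on Bob's side with the property `P` have partners on Alice's side. -/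
def Comp (b : Bool) (ρ : Matrix (A × B) (A × B) ℂ) (P : Matrix B B ℂ → Prop) : Prop :=
  ∀ u, P u → uᴴ * u = 1 ∧ ∃ u' : Matrix A A ℂ, (∃ r : ℂ, u.trace • (1 : Matrix A A ℂ) = r • u') ∧
    (∃ r : ℂ, BF.ctr ρ u = r • u') ∧ Commute (u' ⊗ₖ tw b u) ρ

theorem ctr_one' (u : Matrix B B ℂ) : BF.ctr (1 : Matrix (A × B) (A × B) ℂ) u =
    u.trace • (1 : Matrix A A ℂ) := by
  ext x x'
  simp only [BF.ctr, Matrix.one_apply, Prod.mk.injEq, Matrix.smul_apply, smul_eq_mul,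
    Matrix.trace, Matrix.diag]
  by_cases h : x = x'
  · subst h
    simp
  · simp [h]

theorem Comp.shift {b : Bool} {ρ : Matrix (A × B) (A × B) ℂ} {P : Matrix B B ℂ → Prop}
    (h : Comp b ρ P) (x : ℂ) : Comp b (ρ - x • 1) P := by
  intro u hu
  obtain ⟨h1, u', ⟨r, hr⟩, ⟨s, hs⟩, h4⟩ := h u hu
  refine ⟨h1, u', ⟨r, hr⟩, ⟨s - x * r, ?_⟩, ?_⟩
  · have e : ρ - x • (1 : Matrix (A × B) (A × B) ℂ) = ρ + (-x) • 1 := by
      rw [neg_smul, sub_eq_add_neg]
    rw [e, ctr_add_left, ctr_smul_left, ctr_one', hr, hs, smul_smul, ← add_smul]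
    congr 1
    ring
  · exact h4.sub_right ((Commute.one_right _).smul_right x)

theorem commute_local {X Z : Type} [Fintype X] [DecidableEq X] [Fintype Z] [DecidableEq Z]
    {Q g : Matrix Z Z ℂ} {h : Matrix X X ℂ}
    {M : Matrix (X × Z) (X × Z) ℂ} (hQ : Qᴴ = Q) {χ : ℂ} (hχ : χ ≠ 0) (h1 : g * Q = χ • Q)
    (h2 : Q * g = χ • Q) (hM : Commute (h ⊗ₖ g) M) :
    Commute (h ⊗ₖ (1 : Matrix Z Z ℂ)) (ft Q M) := by
  have hb : ((1 : Matrix X X ℂ) ⊗ₖ Q)ᴴ = (1 : Matrix X X ℂ) ⊗ₖ Q := by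
    rw [conjTranspose_kronecker, conjTranspose_one, hQ]
  rw [ft_eq, hb]
  have e1 : ((1 : Matrix X X ℂ) ⊗ₖ Q) * (h ⊗ₖ g) = χ • ((h ⊗ₖ (1 : Matrix Z Z ℂ)) *
      ((1 : Matrix X X ℂ) ⊗ₖ Q)) := by
    rw [← mul_kronecker_mul, ← mul_kronecker_mul, Matrix.one_mul, Matrix.one_mul, Matrix.mul_one,
      h2, kronecker_smul]
  have e2 : (h ⊗ₖ g) * ((1 : Matrix X X ℂ) ⊗ₖ Q) = χ • (((1 : Matrix X X ℂ) ⊗ₖ Q) *
      (h ⊗ₖ (1 : Matrix Z Z ℂ))) := by
    rw [← mul_kronecker_mul, ← mul_kronecker_mul, Matrix.one_mul, Matrix.mul_one, Matrix.mul_one,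
      h1, kronecker_smul]
  have e3 : χ • ((h ⊗ₖ (1 : Matrix Z Z ℂ)) * (((1 : Matrix X X ℂ) ⊗ₖ Q) * M *
      ((1 : Matrix X X ℂ) ⊗ₖ Q))) = χ • ((((1 : Matrix X X ℂ) ⊗ₖ Q) * M *
      ((1 : Matrix X X ℂ) ⊗ₖ Q)) * (h ⊗ₖ (1 : Matrix Z Z ℂ))) := by
    calc χ • ((h ⊗ₖ (1 : Matrix Z Z ℂ)) * (((1 : Matrix X X ℂ) ⊗ₖ Q) * M *
          ((1 : Matrix X X ℂ) ⊗ₖ Q)))
        = (χ • ((h ⊗ₖ (1 : Matrix Z Z ℂ)) * ((1 : Matrix X X ℂ) ⊗ₖ Q))) * M *
          ((1 : Matrix X X ℂ) ⊗ₖ Q) := by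
          simp only [Matrix.smul_mul, Matrix.mul_assoc]
      _ = ((1 : Matrix X X ℂ) ⊗ₖ Q) * ((h ⊗ₖ g) * M) * ((1 : Matrix X X ℂ) ⊗ₖ Q) := by
          rw [← e1]
          simp only [Matrix.mul_assoc]
      _ = ((1 : Matrix X X ℂ) ⊗ₖ Q) * M * ((h ⊗ₖ g) * ((1 : Matrix X X ℂ) ⊗ₖ Q)) := by
          rw [hM.eq]
          simp only [Matrix.mul_assoc]
      _ = _ := by
          rw [e2, Matrix.mul_smul]
          simp only [Matrix.mul_assoc]
  exact smul_right_injective _ hχ e3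

/-- Unitaries that act as scalars on the range of a projection. -/
theorem scalar_on {Z : Type} [Fintype Z] [DecidableEq Z] {Q h : Matrix Z Z ℂ} (h1 : Qᴴ = Q)
    (h2 : Q * Q = Q) (hu : hᴴ * h = 1) {χ : ℂ} (hχ : h * Q = χ • Q) (b : Bool) :
    Q = 0 ∨ ∃ x : ℂ, x ≠ 0 ∧ tw b h * Q = x • Q ∧ Q * tw b h = x • Q := by
  by_cases h0 : Q = 0
  · exact Or.inl h0
  right
  have hχ' : Q * hᴴ = star χ • Q := by
    have := congrArg conjTranspose hχ
    rwa [conjTranspose_mul, h1, conjTranspose_smul, h1] at this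
  have hχχ : (star χ * χ) • Q = Q := by
    calc (star χ * χ) • Q = (star χ • Q) * (χ • Q) := by
          rw [Matrix.smul_mul, Matrix.mul_smul, h2, smul_smul]
      _ = Q * hᴴ * (h * Q) := by rw [hχ, hχ']
      _ = Q * (hᴴ * h) * Q := by simp only [Matrix.mul_assoc]
      _ = _ := by rw [hu, Matrix.mul_one, h2]
  have hne : star χ * χ ≠ 0 := by
    intro h3
    rw [h3, zero_smul] at hχχ
    exact h0 hχχ.symm
  have hc : χ ≠ 0 := right_ne_zero_of_mul hne
  have hc' : star χ ≠ 0 := left_ne_zero_of_mul hne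
  have h6 : Q * h = χ • Q := by
    have h8 : star χ • (Q * h) = Q := by
      rw [← Matrix.smul_mul, ← hχ', Matrix.mul_assoc, hu, Matrix.mul_one]
    calc Q * h = (star χ * χ) • (Q * h) := by
          rw [← Matrix.smul_mul, hχχ]
      _ = χ • (star χ • (Q * h)) := by rw [smul_smul, mul_comm]
      _ = _ := by rw [h8]
  have h7 : hᴴ * Q = star χ • Q := by
    have := congrArg conjTranspose h6
    rwa [conjTranspose_mul, h1, conjTranspose_smul, h1] at this
  cases b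
  · exact ⟨star χ, hc', h7, hχ'⟩
  · exact ⟨χ, hc, hχ, h6⟩

/-- The commutation hypothesis of `exists_ext` for codes. -/
theorem code_comm {n : ℕ} {S : Matrix (A × B) (A × B) ℂ} {α : ℝ} {P : Matrix B B ℂ → Prop}
    {b : Bool} (hP : Comp b S P) {Q : Matrix (Fin n → B) (Fin n → B) ℂ} (hQ : IsCodeFor P Q)
    (σ τ : Fin n → Bool) (d d' : Fin n → B) :
    Commute (H23.ptr (ft Q (flag S α σ))) (H23.blk (ft Q (flag S α τ)) d d') := by
  obtain ⟨h1, h2, h3⟩ := hQ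
  rw [ptr_ft, h1, h2]
  refine Submodule.span_induction (p := fun Z _ => Commute (BF.ctr (flag S α σ) Z)
    (H23.blk (ft Q (flag S α τ)) d d')) ?_ ?_ ?_ ?_ h3
  · rintro h ⟨u, hu, rfl, χ, hχ⟩
    choose g1 v g2 g3 g4 using fun i => hP (u i) (hu i)
    have hsite : ∀ i, ∃ r : ℂ, BF.ctr (if σ i = true then S else (α : ℂ) • 1) (u i) = r • v i := by
      intro i
      split_ifs
      · exact g3 i
      · obtain ⟨r, hr⟩ := g2 i
        refine ⟨α * r, ?_⟩
        rw [ctr_smul_left, ctr_one', hr, smul_smul]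
    choose r hr using hsite
    have e1 : BF.ctr (flag S α σ) (tens u) = (∏ i, r i) • tens v := by
      rw [flag_eq, ctr_sp]
      ext x x'
      rw [Matrix.smul_apply, smul_eq_mul]
      simp only [tens, hr, Matrix.smul_apply, smul_eq_mul, Finset.prod_mul_distrib]
    rw [e1]
    refine Commute.smul_left ?_ _
    have hunit : (tens u)ᴴ * tens u = 1 := by
      rw [tens_conjTranspose, tens_mul]
      have : (fun i => (u i)ᴴ * u i) = fun _ : Fin n => (1 : Matrix B B ℂ) :=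
        funext fun i => g1 i
      rw [this, tens_one]
    have htw : tw b (tens u) = tens fun i => tw b (u i) := by
      cases b
      · exact tens_conjTranspose u
      · rfl
    have hM : Commute (tens v ⊗ₖ tw b (tens u)) (flag S α τ) := by
      rw [htw, tens_kron, flag_eq]
      show _ * _ = _ * _
      rw [sp_mul, sp_mul]
      congr 1
      funext i
      split_ifs
      · exact g4 i
      · rw [Matrix.mul_smul, Matrix.smul_mul, Matrix.mul_one, Matrix.one_mul]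
    have h4 : Commute (tens v ⊗ₖ (1 : Matrix (Fin n → B) (Fin n → B) ℂ))
        (ft Q (flag S α τ)) := by
      rcases scalar_on h1 h2 hunit hχ b with h0 | ⟨x, hx, hx1, hx2⟩
      · have e0 : ft Q (flag S α τ) = 0 := by
          rw [h0, ft_eq, kronecker_zero, Matrix.zero_mul, Matrix.zero_mul]
        rw [e0]
        exact Commute.zero_right _
      · exact commute_local h1 hx hx1 hx2 hM
    have h5 : H23.blk ((tens v ⊗ₖ (1 : Matrix (Fin n → B) (Fin n → B) ℂ)) *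
        ft Q (flag S α τ)) d d' = H23.blk (ft Q (flag S α τ) *
        (tens v ⊗ₖ (1 : Matrix (Fin n → B) (Fin n → B) ℂ))) d d' := by
      rw [h4.eq]
    rw [blk_mul_left, blk_mul_right] at h5
    exact h5
  · have e0 : BF.ctr (flag S α σ) 0 = 0 := by
      ext x x'
      simp [BF.ctr]
    rw [e0]
    exact Commute.zero_left _
  · intro x y _ _ hx hy
    rw [ctr_add_right]
    exact hx.add_left hy
  · intro c x _ hx
    rw [ctr_smul_right]
    exact hx.smul_left c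

/-- Positive operators with sandwiched marginals are supported on the range. -/
theorem supp {Ω : Matrix (A × B × B) (A × B × B) ℂ} {P : Matrix B B ℂ} {M : Matrix (A × B) (A × B) ℂ}
    (hΩ : Ω.PosSemidef) (hs : Ω.submatrix sw sw = Ω) (hP : Pᴴ = P) (hPP : P * P = P)
    (hm : t3 Ω = onB P * M * onB P) : e13 (onB P) * Ω = Ω := by
  obtain ⟨J, hJ⟩ : ∃ J : Matrix (A × B × B) (A × B × B) ℂ, J = e13 (onB P) := ⟨_, rfl⟩
  have hJh : Jᴴ = J := by rw [hJ, e13_conj, onB_conj, hP]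
  have hJJ : J * J = J := by rw [hJ, ← e13_mul, ← onB_mul, hPP]
  have htr : (J * Ω).trace = Ω.trace := by
    have e1 : ∀ L : Matrix (A × B × B) (A × B × B) ℂ, (L.submatrix sw sw).trace = L.trace := by
      intro L
      simp only [Matrix.trace, Matrix.diag, submatrix_apply]
      exact Equiv.sum_comp sw fun p => L p p
    have e2 : ∀ L : Matrix (A × B × B) (A × B × B) ℂ, (t3 L).trace = L.trace := by
      intro L
      simp only [Matrix.trace, Matrix.diag, t3, Fintype.sum_prod_type]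
    rw [← e1 (J * Ω), mul_sw, hs, hJ, e13_sw, ← e2, t3_left, hm, ← e2 Ω, hm]
    congr 1
    rw [← Matrix.mul_assoc, ← Matrix.mul_assoc, ← onB_mul, hPP]
  obtain ⟨C, hC⟩ := exists_eq_conjTranspose_mul_self hΩ
  have hz : (C * (1 - J))ᴴ * (C * (1 - J)) = 0 := by
    have hp : ((1 - J)ᴴ * Ω * (1 - J)).PosSemidef := hΩ.conjTranspose_mul_mul_same _
    have ht : ((1 - J)ᴴ * Ω * (1 - J)).trace = 0 := by
      rw [conjTranspose_sub, conjTranspose_one, hJh, Matrix.trace_mul_comm, ← Matrix.mul_assoc]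
      have : (1 - J) * (1 - J) = 1 - J := by
        rw [Matrix.mul_sub, Matrix.sub_mul, Matrix.sub_mul, hJJ]
        simp
      rw [this, Matrix.sub_mul, Matrix.one_mul, trace_sub, htr, sub_self]
    rw [conjTranspose_mul, Matrix.mul_assoc, ← Matrix.mul_assoc Cᴴ, ← hC, ← Matrix.mul_assoc]
    exact hp.trace_eq_zero_iff.mp ht
  have h0 : C * (1 - J) = 0 := conjTranspose_mul_self_eq_zero.mp hz
  have h1 : Ω * (1 - J) = 0 := by rw [hC, Matrix.mul_assoc, h0, Matrix.mul_zero]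
  have h2 : Ω * J = Ω := by
    rw [Matrix.mul_sub, Matrix.mul_one, sub_eq_zero] at h1
    exact h1.symm
  have h3 := congrArg conjTranspose h2
  rw [conjTranspose_mul, hJh, hΩ.1] at h3
  rw [← hJ]
  exact h3

/-- Extensions relative to codes on `n` copies. -/
theorem code_ext {n : ℕ} {ρ : Matrix (A × B) (A × B) ℂ} {lo : ℝ} (hlo : 0 < lo)
    (h1 : (ρ - (lo : ℂ) • 1).PosSemidef) (h2 : (((2 * lo : ℝ) : ℂ) • 1 - ρ).PosSemidef)
    {b : Bool} {P : Matrix B B ℂ → Prop} (hP : Comp b ρ P)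
    {Q : Matrix (Fin n → B) (Fin n → B) ℂ} (hQ : IsCodeFor P Q) (hQ0 : Q.trace ≠ 0) :
    ∃ K, IsExt (cop (Fin n) ρ) Q K := by
  have hS' : ((lo : ℂ) • 1 - (ρ - (lo : ℂ) • 1)).PosSemidef := by
    have e : (lo : ℂ) • 1 - (ρ - (lo : ℂ) • (1 : Matrix (A × B) (A × B) ℂ)) =
        ((2 * lo : ℝ) : ℂ) • 1 - ρ := by
      rw [Complex.ofReal_mul, Complex.ofReal_ofNat, two_mul, add_smul]
      abel
    rw [e]
    exact h2
  obtain ⟨Ω, hΩ, m1, m2⟩ := exists_ext h1 hlo.le hS' Q (code_comm (hP.shift lo) hQ)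
  obtain ⟨hQh, hQQ, -⟩ := hQ
  have hcop : (∑ τ : Fin n → Bool, flag (ρ - (lo : ℂ) • 1) lo τ) = cop (Fin n) ρ := by
    have e : (lo : ℂ) • (1 : Matrix (A × B) (A × B) ℂ) + (ρ - (lo : ℂ) • 1) = ρ := by abel
    rw [sum_flag, e]
    rfl
  rw [hcop] at m1 m2
  have hQp : Q.PosSemidef := by
    have h3 := posSemidef_conjTranspose_mul_self Q
    rwa [hQh, hQQ] at h3
  obtain ⟨τ, hτ⟩ : ∃ τ : ℝ, Q.trace = (τ : ℂ) := ⟨Q.trace.re, by
    have := hQp.trace_nonneg
    rw [Complex.le_def] at this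
    apply Complex.ext
    · simp
    · simpa using this.2.symm⟩
  have hτ0 : 0 < τ := by
    have h3 := hQp.trace_nonneg
    rw [hτ] at h3 hQ0
    have h4 : 0 ≤ τ := by exact_mod_cast h3
    have h5 : τ ≠ 0 := by exact_mod_cast hQ0
    exact lt_of_le_of_ne h4 (Ne.symm h5)
  have hftQ : ft Q (cop (Fin n) ρ) = onB Q * cop (Fin n) ρ * onB Q := by
    have e : (onB Q : Matrix ((Fin n → A) × (Fin n → B)) ((Fin n → A) × (Fin n → B)) ℂ)ᴴ =
        onB Q := by rw [onB_conj, hQh]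
    rw [ft_eq]
    show onB Q * cop (Fin n) ρ * (onB Q)ᴴ = _
    rw [e]
  have t1 : t3 Ω = onB Q * cop (Fin n) ρ * onB Q := by
    rw [← hftQ]
    ext p q
    exact m1 p.1 p.2 q.1 q.2
  have t2 : t3 (Ω.submatrix sw sw) = onB Q * cop (Fin n) ρ * onB Q := by
    rw [← hftQ]
    ext p q
    exact m2 p.1 p.2 q.1 q.2
  obtain ⟨Ω', hΩ'⟩ : ∃ Ω', Ω' = ((1 / 2 : ℝ) : ℂ) • (Ω + Ω.submatrix sw sw) := ⟨_, rfl⟩
  have p1 : Ω'.PosSemidef := by
    rw [hΩ']
    exact (hΩ.add (hΩ.submatrix sw)).smul (by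
      rw [Complex.zero_le_real]
      norm_num)
  have p2 : Ω'.submatrix sw sw = Ω' := by
    rw [hΩ']
    ext p q
    simp only [submatrix_apply, Matrix.smul_apply, Matrix.add_apply]
    rw [add_comm]
    rfl
  have p3 : t3 Ω' = onB Q * cop (Fin n) ρ * onB Q := by
    rw [hΩ', t3_smul, t3_add, t1, t2, ← two_smul ℂ, smul_smul]
    have : (((1 / 2 : ℝ) : ℂ) * 2) = 1 := by
      push_cast
      norm_num
    rw [this, one_smul]
  refine lift (lo := lo ^ Fintype.card (Fin n)) (pow_pos hlo _) (cop_low (Fin n) hlo.le h1) hQh hQQ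
    hτ0 hτ p1 p2 (supp p1 p2 hQh hQQ p3) p3

end Vale.Agent.P372.H795
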