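import Vale.Agent.P372.H795.Defs
import Vale.Agent.P372.H795.Code

open Matrix Kronecker
open scoped ComplexOrder MatrixOrder

set_option linter.unusedSectionVars false

namespace Vale.Agent.P372.H795

open Vale.Agent.P372 Vale.Agent.P372.BF Vale.Agent.P372.H23

variable {A B E : Type} [Fintype A] [DecidableEq A] [Fintype B] [DecidableEq B]
  [Fintype E] [DecidableEq E]

/-- Reindexing of the copies. -/
def ren {ι κ : Type} (e : ι ≃ κ) (X : Type) : (κ → X) ≃ (ι → X) where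
  toFun x j := x (e j)
  invFun y k := y (e.symm k)
  left_inv x := by
    funext k
    simp
  right_inv y := by
    funext j
    simp

theorem cop_ren {ι κ : Type} [Fintype ι] [Fintype κ] (e : ι ≃ κ) (ρ : Matrix (A × B) (A × B) ℂ)
    (p q : (κ → A) × (κ → B)) :
    cop ι ρ (ren e A p.1, ren e B p.2) (ren e A q.1, ren e B q.2) = cop κ ρ p q := by
  simp only [cop, ren, Equiv.coe_fn_mk]
  exact Equiv.prod_comp e fun k => ρ (p.1 k, p.2 k) (q.1 k, q.2 k)

theorem ext_ren {ι κ : Type} [Fintype ι] [DecidableEq ι] [Fintype κ] [DecidableEq κ] (e : ι ≃ κ)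
    {ρ : Matrix (A × B) (A × B) ℂ} {Q : Matrix (ι → B) (ι → B) ℂ}
    (h : ∃ K, IsExt (cop κ ρ) (Q.submatrix (ren e B) (ren e B)) K) :
    ∃ K, IsExt (cop ι ρ) Q K := by
  obtain ⟨K, h1, h2, h3⟩ := h
  refine ⟨K.submatrix (fun p => ((ren e A).symm p.1, (ren e B).symm p.2.1, (ren e B).symm p.2.2))
    (fun p => ((ren e A).symm p.1, (ren e B).symm p.2.1, (ren e B).symm p.2.2)),
    h1.submatrix _, ?_, ?_⟩
  · intro a b a' b'
    have h4 := h2 ((ren e A).symm a) ((ren e B).symm b) ((ren e A).symm a') ((ren e B).symm b')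
    rw [← cop_ren e ρ] at h4
    simp only [Equiv.apply_symm_apply] at h4
    rw [← h4, ← (ren e B).sum_comp]
    refine Finset.sum_congr rfl fun c _ => ?_
    rw [← (ren e B).sum_comp]
    simp only [submatrix_apply, Equiv.symm_apply_apply]
  · intro a b a' b'
    have h4 := h3 ((ren e A).symm a) ((ren e B).symm b) ((ren e A).symm a') ((ren e B).symm b')
    rw [← cop_ren e ρ] at h4
    simp only [Equiv.apply_symm_apply] at h4
    rw [← h4, ← (ren e B).sum_comp]
    refine Finset.sum_congr rfl fun c _ => ?_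
    rw [← (ren e B).sum_comp]
    simp only [submatrix_apply, Equiv.symm_apply_apply]

theorem code_ren {ι : Type} [Fintype ι] [DecidableEq ι] {n : ℕ} (e : ι ≃ Fin n)
    {P : Matrix B B ℂ → Prop} {Q : Matrix (ι → B) (ι → B) ℂ} (h : CodeProj P Q) :
    IsCodeFor P (Q.submatrix (ren e B) (ren e B)) := by
  obtain ⟨h1, h2, h3⟩ := h
  refine ⟨?_, ?_, ?_⟩
  · rw [conjTranspose_submatrix, h1]
  · rw [submatrix_mul_equiv, h2]
  · obtain ⟨L, hL⟩ : ∃ L : Matrix (ι → B) (ι → B) ℂ →ₗ[ℂ] Matrix (Fin n → B) (Fin n → B) ℂ,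
        ∀ M, L M = M.submatrix (ren e B) (ren e B) :=
      ⟨{ toFun := fun M => M.submatrix (ren e B) (ren e B)
         map_add' := fun _ _ => rfl
         map_smul' := fun _ _ => rfl }, fun _ => rfl⟩
    have h4 := Submodule.mem_map_of_mem (f := L) h3
    rw [Submodule.map_span, hL] at h4
    refine Submodule.span_mono ?_ h4
    rintro _ ⟨h, ⟨u, hu, hh, χ, hχ⟩, rfl⟩
    refine ⟨fun k => u (e.symm k), fun k => hu _, ?_, χ, ?_⟩
    · rw [hL]
      ext p q
      rw [submatrix_apply, hh]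
      simp only [ren, Equiv.coe_fn_mk, tens]
      rw [← Equiv.prod_comp e]
      simp
    · rw [hL, submatrix_mul_equiv, hχ]
      rfl

/-- Extensions relative to a code, for any index set. -/
theorem code_ext' {ι : Type} [Fintype ι] [DecidableEq ι] {ρ : Matrix (A × B) (A × B) ℂ} {lo : ℝ}
    (hlo : 0 < lo)
    (h1 : (ρ - (lo : ℂ) • 1).PosSemidef) (h2 : (((2 * lo : ℝ) : ℂ) • 1 - ρ).PosSemidef)
    {b : Bool} {P : Matrix B B ℂ → Prop} (hP : Comp b ρ P)
    {Q : Matrix (ι → B) (ι → B) ℂ} (hQ : CodeProj P Q) (hQ0 : Q.trace ≠ 0) :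
    ∃ K, IsExt (cop ι ρ) Q K := by
  refine ext_ren (Fintype.equivFin ι) ?_
  refine code_ext hlo h1 h2 hP (code_ren (Fintype.equivFin ι) hQ) ?_
  have e : (Q.submatrix (ren (Fintype.equivFin ι) B) (ren (Fintype.equivFin ι) B)).trace =
      Q.trace := by
    simp only [Matrix.trace, Matrix.diag, submatrix_apply]
    exact Equiv.sum_comp (ren (Fintype.equivFin ι) B) fun p => Q p p
  rwa [e]

/-- Extensions relative to every filter that is almost a product of filters on blocks. -/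
theorem ext_or_zero {n M : ℕ} {c : ℝ} {ρ : Matrix (A × B) (A × B) ℂ} {lo hi : ℝ}
    (hlo : 0 < lo) (hlohi : lo ≤ hi) (hc : 0 < c) (h1 : (ρ - (lo : ℂ) • 1).PosSemidef)
    (h2 : ((hi : ℂ) • 1 - ρ).PosSemidef)
    {G P : Matrix (Fin n → B) (Fin n → B) ℂ} (hG0 : G.PosSemidef)
    {m : ℕ} {π : Fin n → Fin (m + 1)}
    {Q : ∀ i, Matrix ({j // π j = i} → B) ({j // π j = i} → B) ℂ}
    (hc0 : Fintype.card {j // π j = 0} ≤ M)
    (hx : ∀ i, i ≠ 0 → (Q i).trace ≠ 0 → ∃ K, IsExt (cop {j // π j = i} ρ) (Q i) K)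
    (hQ : ∀ i, (Q i).PosSemidef) (hP : ∀ p q, P p q = ∏ i, Q i (fun j => p j) (fun j => q j))
    (hGP : (G - P).PosSemidef) (hPG : ((c : ℂ) • P - G).PosSemidef) :
    G = 0 ∨ ∃ L, IsExtK (c * (hi / lo) ^ M) (cop (Fin n) ρ) G L := by
  have hρ : ρ.PosSemidef := by
    have h4 : ρ = (ρ - (lo : ℂ) • 1) + (lo : ℂ) • (1 : Matrix _ _ ℂ) := by abel
    rw [h4]
    exact h1.add (PosSemidef.one.smul (by exact_mod_cast hlo.le))
  have hhi : 0 < hi := hlo.trans_le hlohi
  by_cases h0 : ∃ i, (Q i).trace = 0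
  · left
    obtain ⟨i, hi⟩ := h0
    have hQi : Q i = 0 := (hQ i).trace_eq_zero_iff.mp hi
    have hP0 : P = 0 := by
      ext p q
      rw [hP, Matrix.zero_apply]
      exact Finset.prod_eq_zero (Finset.mem_univ i) (by rw [hQi, Matrix.zero_apply])
    rw [hP0, smul_zero, zero_sub] at hPG
    have h3 := hPG.trace_nonneg
    have h4 := hG0.trace_nonneg
    rw [trace_neg] at h3
    exact hG0.trace_eq_zero_iff.mp (le_antisymm (neg_nonneg.mp h3) h4)
  · right
    push Not at h0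
    -- the comparison operator
    obtain ⟨C, hC⟩ : ∃ C : ∀ i, Matrix (({j // π j = i} → A) × ({j // π j = i} → B))
      (({j // π j = i} → A) × ({j // π j = i} → B)) ℂ, C = fun i => cop {j // π j = i} ρ :=
      ⟨_, rfl⟩
    obtain ⟨s, hs⟩ : ∃ s, s = Fintype.card {j // π j = 0} := ⟨_, rfl⟩
    obtain ⟨O, hO⟩ : ∃ O : Matrix (({j // π j = 0} → A) × ({j // π j = 0} → B))
      (({j // π j = 0} → A) × ({j // π j = 0} → B)) ℂ, O = 1 := ⟨_, rfl⟩
    have hR : cop (Fin n) ρ = bprod π (Function.update C 0 (C 0)) := by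
      rw [Function.update_eq_self, hC]
      exact cop_eq_bprod π ρ
    have hpos : ∀ i, (C i).PosSemidef := by
      intro i
      rw [hC]
      have h3 := cop_low {j // π j = i} hlo.le h1
      have h4 := h3.add ((PosSemidef.one (n := ({j // π j = i} → A) ×
        ({j // π j = i} → B)) (R := ℂ)).smul (Complex.zero_le_real.mpr
          (pow_nonneg hlo.le (Fintype.card {j // π j = i}))))
      rwa [sub_add_cancel] at h4
    have hupd : ∀ W, W.PosSemidef → (bprod π (Function.update C 0 W)).PosSemidef := by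
      intro W hW
      refine bprod_posSemidef π fun i => ?_
      by_cases hi0 : i = 0
      · subst hi0
        rw [Function.update_self]
        exact hW
      · rw [Function.update_of_ne hi0]
        exact hpos i
    obtain ⟨S, hS⟩ : ∃ S, S = bprod π (Function.update C 0 (((lo ^ s : ℝ) : ℂ) • O)) := ⟨_, rfl⟩
    have hRS : (cop (Fin n) ρ - S).PosSemidef := by
      have h3 := cop_low {j // π j = 0} hlo.le h1
      rw [← hs, ← hO] at h3
      have h4 := hupd ((1 : ℂ) • C 0 - (1 : ℂ) • (((lo ^ s : ℝ) : ℂ) • O)) (by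
        rw [one_smul, one_smul, hC]
        exact h3)
      rw [bprod_update, one_smul, one_smul, ← hR, ← hS] at h4
      exact h4
    have hSR : ((((hi / lo) ^ M : ℝ) : ℂ) • S - cop (Fin n) ρ).PosSemidef := by
      have h3 := cop_high {j // π j = 0} hρ h2
      rw [← hs, ← hO] at h3
      have h5 : hi ^ s ≤ (hi / lo) ^ M * lo ^ s := by
        have h6 : 1 ≤ hi / lo := (one_le_div hlo).mpr hlohi
        calc hi ^ s = (hi / lo) ^ s * lo ^ s := by
              rw [div_pow, div_mul_cancel₀ _ (pow_pos hlo s).ne']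
          _ ≤ _ := mul_le_mul_of_nonneg_right
              (pow_le_pow_right₀ h6 (hs ▸ hc0)) (pow_nonneg hlo.le s)
      have h4 := hupd ((((hi / lo) ^ M : ℝ) : ℂ) • (((lo ^ s : ℝ) : ℂ) • O) - (1 : ℂ) • C 0) (by
        rw [one_smul, smul_smul, ← Complex.ofReal_mul]
        have h7 := h3.add ((PosSemidef.one (n := ({j // π j = 0} → A) ×
          ({j // π j = 0} → B)) (R := ℂ)).smul
          (Complex.zero_le_real.mpr (sub_nonneg.mpr h5)))
        rw [← hO, Complex.ofReal_sub, sub_smul] at h7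
        have h8 : ((hi ^ s : ℝ) : ℂ) • O - cop {j // π j = 0} ρ +
            ((((hi / lo) ^ M * lo ^ s : ℝ) : ℂ) • O - ((hi ^ s : ℝ) : ℂ) • O) =
            (((hi / lo) ^ M * lo ^ s : ℝ) : ℂ) • O - C 0 := by
          rw [hC]
          abel
        rwa [h8] at h7)
      rw [bprod_update, one_smul, ← hR, ← hS] at h4
      exact h4
    have hext : ∃ K, IsExt S P K := by
      rw [hS]
      refine ext_blocks π (fun i => ?_) hP
      by_cases hi0 : i = 0
      · subst hi0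
        rw [Function.update_self, hO]
        exact ext_smul_one (pow_nonneg hlo.le s) (hQ 0) (h0 0)
      · rw [Function.update_of_ne hi0, hC]
        exact hx i hi0 (h0 i)
    obtain ⟨K, hK⟩ := hext
    exact ⟨_, hK.extK (pow_nonneg (div_nonneg hhi.le hlo.le) M) hc hRS hSR hGP hPG⟩

/-- Extensions relative to small blocks. -/
theorem small_ext {ι : Type} [Fintype ι] [DecidableEq ι] {ρ : Matrix (A × B) (A × B) ℂ}
    {lo hi : ℝ} (hlo : 0 < lo) (hlohi : lo ≤ hi) (h1 : (ρ - (lo : ℂ) • 1).PosSemidef)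
    (h2 : ((hi : ℂ) • 1 - ρ).PosSemidef) {N : ℕ} (hN : hi ^ N ≤ 2 * lo ^ N)
    (hcN : Fintype.card ι ≤ N) {Q : Matrix (ι → B) (ι → B) ℂ} (hQ : Q.PosSemidef)
    (h0 : Q.trace ≠ 0) : ∃ K, IsExt (cop ι ρ) Q K := by
  have hρ : ρ.PosSemidef := by
    have h4 : ρ = (ρ - (lo : ℂ) • 1) + (lo : ℂ) • (1 : Matrix _ _ ℂ) := by abel
    rw [h4]
    exact h1.add (PosSemidef.one.smul (by exact_mod_cast hlo.le))
  have hhi : 0 < hi := hlo.trans_le hlohi
  have hpow : hi ^ Fintype.card ι ≤ 2 * lo ^ Fintype.card ι := by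
    obtain ⟨r, hr⟩ := Nat.exists_eq_add_of_le hcN
    rw [hr, pow_add, pow_add] at hN
    have h3 : lo ^ r ≤ hi ^ r := pow_le_pow_left₀ hlo.le hlohi r
    have h4 : 0 < lo ^ r := pow_pos hlo r
    have h5 : 0 < hi ^ Fintype.card ι := pow_pos hhi _
    by_contra hcon
    push Not at hcon
    have h6 : 2 * (lo ^ Fintype.card ι * lo ^ r) < hi ^ Fintype.card ι * hi ^ r := by
      calc 2 * (lo ^ Fintype.card ι * lo ^ r) = (2 * lo ^ Fintype.card ι) * lo ^ r := by ring
        _ < hi ^ Fintype.card ι * lo ^ r := mul_lt_mul_of_pos_right hcon h4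
        _ ≤ _ := mul_le_mul_of_nonneg_left h3 h5.le
    linarith
  refine BF.exists_ext (cop_low ι hlo.le h1) ?_ hQ h0
  have h7 := cop_high ι hρ h2
  have h8 : (((2 * lo ^ Fintype.card ι : ℝ) : ℂ) • 1 -
      cop ι ρ) = (((hi ^ Fintype.card ι : ℝ) : ℂ) • 1 -
      cop ι ρ) + (((2 * lo ^ Fintype.card ι -
        hi ^ Fintype.card ι : ℝ) : ℂ) • (1 : Matrix _ _ ℂ)) := by
    rw [Complex.ofReal_sub, sub_smul]
    abel
  rw [h8]
  exact h7.add (PosSemidef.one.smul (by exact_mod_cast sub_nonneg.mpr hpow))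

/-- One party: extensions relative to the filters of the class. -/
theorem ext_class {n N M : ℕ} {c : ℝ} {ρ : Matrix (A × B) (A × B) ℂ} {lo hi : ℝ}
    (hlo : 0 < lo) (hlohi : lo ≤ hi) (hc : 0 < c) (h1 : (ρ - (lo : ℂ) • 1).PosSemidef)
    (h2 : ((hi : ℂ) • 1 - ρ).PosSemidef) (h12 : hi ≤ 2 * lo) (hN : hi ^ N ≤ 2 * lo ^ N)
    {b : Bool} {P : Matrix B B ℂ → Prop} (hP : Comp b ρ P)
    {G : Matrix (Fin n → B) (Fin n → B) ℂ} (hG0 : G.PosSemidef) (hG : NearCodeBlocks P N M c G) :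
    G = 0 ∨ ∃ L, IsExtK (c * (hi / lo) ^ M) (cop (Fin n) ρ) G L := by
  obtain ⟨R, ⟨m, π, Q, hc0, hcN, hQ, hR⟩, hGR, hRG⟩ := hG
  refine ext_or_zero hlo hlohi hc h1 h2 hG0 hc0 (fun i hi0 h0 => ?_) hQ hR hGR hRG
  rcases hcN i hi0 with h3 | h3
  · exact small_ext hlo hlohi h1 h2 hN h3 (hQ i) h0
  · refine code_ext' hlo h1 ?_ hP h3 h0
    have h8 : (((2 * lo : ℝ) : ℂ) • 1 - ρ) = ((hi : ℂ) • 1 - ρ) +
        (((2 * lo - hi : ℝ) : ℂ) • (1 : Matrix _ _ ℂ)) := by
      rw [Complex.ofReal_sub, sub_smul]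
      abel
    rw [h8]
    exact h2.add (PosSemidef.one.smul (by exact_mod_cast sub_nonneg.mpr h12))

/-- No key for the filters of the class. -/
theorem near_filters {ρ : Matrix (A × B) (A × B) ℂ} {lo hi c : ℝ} {N M : ℕ}
    (htr : ρ.trace = 1) (hlo : 0 < lo) (h1 : (ρ - (lo : ℂ) • 1).PosSemidef)
    (h2 : ((hi : ℂ) • 1 - ρ).PosSemidef) (h12 : hi ≤ 2 * lo) (hN : hi ^ N ≤ 2 * lo ^ N)
    (hc : 0 < c) {b b' : Bool} {PA : Matrix A A ℂ → Prop} {PB : Matrix B B ℂ → Prop}
    (hPA : Comp b (ρ.submatrix (Prod.swap : B × A → A × B) Prod.swap) PA) (hPB : Comp b' ρ PB)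
    (Ψ : Matrix (A × B) E ℂ) (hΨ : Ψ * Ψᴴ = ρ) (n ℓ : ℕ) (T : Type)
    [Fintype T] (f : T → (Fin ℓ → Bool) → Matrix (Fin n → A) (Fin n → A) ℂ)
    (g : T → (Fin ℓ → Bool) → Matrix (Fin n → B) (Fin n → B) ℂ) (ε : ℝ)
    (hL : LOCC (Fin ℓ → Bool) (Fin n → A) (Fin n → B) T f g)
    (hprod : ∀ t, NearCodeBlocks PA N M c (∑ k, f t k) ∨ NearCodeBlocks PB N M c (∑ k, g t k))
    (herr : KeyError f g (copies n Ψ) ε) :
    1 - ε ≤ c * (hi / lo) ^ M * ((2 ^ ℓ)⁻¹ + ε) := by
  have hne : Nonempty (A × B) := by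
    by_contra hcon
    rw [not_nonempty_iff] at hcon
    rw [Matrix.trace, Finset.univ_eq_empty, Finset.sum_empty] at htr
    exact zero_ne_one htr
  have hlohi : lo ≤ hi := by
    obtain ⟨p⟩ := hne
    have h3 := (h1.add h2).diag_nonneg (i := p)
    have h4 : ((ρ - (lo : ℂ) • 1) + ((hi : ℂ) • 1 - ρ)) p p = ((hi - lo : ℝ) : ℂ) := by
      simp only [Matrix.add_apply, Matrix.sub_apply, Matrix.smul_apply, Matrix.one_apply_eq,
        smul_eq_mul]
      push_cast
      ring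
    rw [h4, Complex.zero_le_real] at h3
    linarith
  have hW : copies n Ψ * (copies n Ψ)ᴴ = cop (Fin n) ρ := by
    rw [copies_mul, hΨ]
    rfl
  have hlown := cop_low (Fin n) hlo.le h1
  have hunit : ∃ W', (copies n Ψ * (copies n Ψ)ᴴ) * W' = 1 := by
    rw [hW]
    have h3 : (cop (Fin n) ρ).PosDef := by
      have h4 : cop (Fin n) ρ = ((lo ^ Fintype.card (Fin n) : ℝ) : ℂ) •
          (1 : Matrix ((Fin n → A) × (Fin n → B)) ((Fin n → A) × (Fin n → B)) ℂ) +
            (cop (Fin n) ρ - ((lo ^ Fintype.card (Fin n) : ℝ) : ℂ) • 1) := by abel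
      rw [h4]
      exact (PosDef.one.smul (by exact_mod_cast pow_pos hlo _)).add_posSemidef hlown
    exact ⟨(cop (Fin n) ρ)⁻¹, Matrix.mul_nonsing_inv _
      ((Matrix.isUnit_iff_isUnit_det _).mp h3.isUnit)⟩
  obtain ⟨W', hW'⟩ := hunit
  obtain ⟨hf, hg⟩ := Lim.locc_psd hL
  -- exchange of the parties
  have hρ' : (ρ.submatrix (Prod.swap : B × A → A × B) Prod.swap - (lo : ℂ) • 1).PosSemidef := by
    have h3 := h1.submatrix (Prod.swap : B × A → A × B)
    have h4 : (ρ - (lo : ℂ) • 1).submatrix (Prod.swap : B × A → A × B) Prod.swap =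
        ρ.submatrix Prod.swap Prod.swap - (lo : ℂ) • 1 := by
      ext p q
      simp only [submatrix_apply, Matrix.sub_apply, Matrix.smul_apply, Matrix.one_apply,
        Prod.swap_injective.eq_iff]
    rwa [h4] at h3
  have hρ'' : ((hi : ℂ) • 1 - ρ.submatrix (Prod.swap : B × A → A × B)
      Prod.swap).PosSemidef := by
    have h3 := h2.submatrix (Prod.swap : B × A → A × B)
    have h4 : ((hi : ℂ) • 1 - ρ).submatrix (Prod.swap : B × A → A × B) Prod.swap =
        (hi : ℂ) • 1 - ρ.submatrix Prod.swap Prod.swap := by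
      ext p q
      simp only [submatrix_apply, Matrix.sub_apply, Matrix.smul_apply, Matrix.one_apply,
        Prod.swap_injective.eq_iff]
    rwa [h4] at h3
  have hκ : 0 ≤ c * (hi / lo) ^ M :=
    mul_nonneg hc.le (pow_nonneg (div_nonneg (hlo.trans_le hlohi).le hlo.le) M)
  have hkey := key_bound (copies n Ψ) hW' f g hf hg hκ (fun t => ?_) herr
  · have hcard : (Fintype.card (Fin ℓ → Bool) : ℝ) = 2 ^ ℓ := by simp
    rwa [hcard] at hkey
  · rcases hprod t with h | h
    · left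
      rcases ext_class hlo hlohi hc hρ' hρ'' h12 hN hPA (posSemidef_sum _ fun k _ => hf t k) h
        with h0 | h0
      · exact Or.inl h0
      · right
        rw [hW]
        exact h0
    · right
      rw [hW]
      exact ext_class hlo hlohi hc h1 h2 h12 hN hPB (posSemidef_sum _ fun k _ => hg t k) h

end Vale.Agent.P372.H795
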