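import Vale.Agent.P372.H795.Loc
import Vale.Agent.P372.H795.Blocks2

open Matrix Kronecker
open scoped ComplexOrder MatrixOrder

set_option linter.unusedSectionVars false

namespace Vale.Agent.P372.H795

open Vale.Agent.P372 Vale.Agent.P372.BF Vale.Agent.P372.H23

variable {A B E : Type} [Fintype A] [DecidableEq A] [Fintype B] [DecidableEq B]
  [Fintype E] [DecidableEq E]

/-- The product of operators on blocks is monotone. -/
theorem bprod_mono {n m : ℕ} (π : Fin n → Fin m)
    {X Y : ∀ i, Matrix (({j // π j = i} → A) × ({j // π j = i} → B))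
      (({j // π j = i} → A) × ({j // π j = i} → B)) ℂ} (h0 : ∀ i, (Y i).PosSemidef)
    (h1 : ∀ i, (X i - Y i).PosSemidef) : (bprod π X - bprod π Y).PosSemidef := by
  have h2 : bprod π X = ∑ T : Finset (Fin m), bprod π fun i => if i ∈ T then X i - Y i else Y i := by
    ext p q
    rw [Matrix.sum_apply]
    simp only [bprod]
    have h3 := prod_add_ite (ι := Fin m)
      (fun i => Y i (fun j => p.1 j, fun j => p.2 j) (fun j => q.1 j, fun j => q.2 j))
      (fun i => X i (fun j => p.1 j, fun j => p.2 j) (fun j => q.1 j, fun j => q.2 j) -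
        Y i (fun j => p.1 j, fun j => p.2 j) (fun j => q.1 j, fun j => q.2 j))
    simp only [add_sub_cancel] at h3
    rw [h3]
    refine Finset.sum_congr rfl fun T _ => Finset.prod_congr rfl fun i _ => ?_
    split_ifs <;> rfl
  have h4 : bprod π Y = bprod π fun i => if i ∈ (∅ : Finset (Fin m)) then X i - Y i else Y i := by
    simp
  have h5 : bprod π X - bprod π Y = ∑ T ∈ Finset.univ.erase (∅ : Finset (Fin m)),
      bprod π fun i => if i ∈ T then X i - Y i else Y i := by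
    rw [h2, ← Finset.add_sum_erase Finset.univ _ (Finset.mem_univ (∅ : Finset (Fin m))), ← h4]
    abel
  rw [h5]
  refine posSemidef_sum _ fun T _ => bprod_posSemidef π fun i => ?_
  split_ifs
  · exact h1 i
  · exact h0 i

theorem bprod_smul {n m : ℕ} (π : Fin n → Fin m) (κ : Fin m → ℂ)
    (X : ∀ i, Matrix (({j // π j = i} → A) × ({j // π j = i} → B))
      (({j // π j = i} → A) × ({j // π j = i} → B)) ℂ) :
    bprod π (fun i => κ i • X i) = (∏ i, κ i) • bprod π X := by
  ext p q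
  simp only [bprod, Matrix.smul_apply, smul_eq_mul, Finset.prod_mul_distrib]

theorem ctrL_posSemidef {X Y : Type} [Fintype X] [DecidableEq X] [Fintype Y] [DecidableEq Y]
    {L : Matrix (X × Y × Y) (X × Y × Y) ℂ} {G : Matrix Y Y ℂ} (hL : L.PosSemidef)
    (hG : G.PosSemidef) : (ctrL L G).PosSemidef := by
  rw [ctrL_eq]
  exact ctr_posSemidef (hL.submatrix _) hG

theorem ctrM_posSemidef {X Y : Type} [Fintype X] [DecidableEq X] [Fintype Y] [DecidableEq Y]
    {L : Matrix (X × Y × Y) (X × Y × Y) ℂ} {G : Matrix Y Y ℂ} (hL : L.PosSemidef)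
    (hG : G.PosSemidef) : (ctrM L G).PosSemidef := by
  have h : ctrM L G = ctrL (L.submatrix (fun p : X × Y × Y => (p.1, p.2.2, p.2.1))
      fun p : X × Y × Y => (p.1, p.2.2, p.2.1)) G := rfl
  rw [h]
  exact ctrL_posSemidef (hL.submatrix _) hG

/-- Products of extensions. -/
theorem extK_blocks {n m : ℕ} (π : Fin n → Fin m)
    {R : ∀ i, Matrix (({j // π j = i} → A) × ({j // π j = i} → B))
      (({j // π j = i} → A) × ({j // π j = i} → B)) ℂ}
    {Q : ∀ i, Matrix ({j // π j = i} → B) ({j // π j = i} → B) ℂ} {κ : Fin m → ℝ}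
    (hR : ∀ i, (R i).PosSemidef) (hQ : ∀ i, (Q i).PosSemidef)
    (h : ∀ i, ∃ K, IsExtK (κ i) (R i) (Q i) K)
    {G : Matrix (Fin n → B) (Fin n → B) ℂ}
    (hG : ∀ p q, G p q = ∏ i, Q i (fun j => p j) (fun j => q j)) :
    ∃ K, IsExtK (∏ i, κ i) (bprod π R) G K := by
  choose K hK using h
  obtain ⟨L, hL⟩ : ∃ L : Matrix ((Fin n → A) × (Fin n → B) × (Fin n → B))
      ((Fin n → A) × (Fin n → B) × (Fin n → B)) ℂ,
      L = fun p q => ∏ i, K i (fun j => p.1 j, fun j => p.2.1 j, fun j => p.2.2 j)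
        (fun j => q.1 j, fun j => q.2.1 j, fun j => q.2.2 j) := ⟨_, rfl⟩
  have eL : ctrL L G = bprod π fun i => ctrL (K i) (Q i) := by
    ext p q
    simp only [ctrL, bprod, hL, hG, ← Finset.prod_mul_distrib]
    have e1 : ∀ c : Fin n → B, ∑ c' : Fin n → B, ∏ i,
        (K i (fun j => p.1 j, fun j => p.2 j, fun j => c j)
          (fun j => q.1 j, fun j => q.2 j, fun j => c' j) *
          Q i (fun j => c' j) (fun j => c j)) =
        ∏ i, ∑ c', K i (fun j => p.1 j, fun j => p.2 j, fun j => c j)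
          (fun j => q.1 j, fun j => q.2 j, c') * Q i c' (fun j => c j) := by
      intro c
      exact sum_blk π fun i c' => K i (fun j => p.1 j, fun j => p.2 j, fun j => c j)
          (fun j => q.1 j, fun j => q.2 j, c') * Q i c' (fun j => c j)
    simp only [e1]
    exact sum_blk π fun i c => ∑ c', K i (fun j => p.1 j, fun j => p.2 j, c)
          (fun j => q.1 j, fun j => q.2 j, c') * Q i c' c
  have eM : ctrM L G = bprod π fun i => ctrM (K i) (Q i) := by
    ext p q
    simp only [ctrM, bprod, hL, hG, ← Finset.prod_mul_distrib]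
    have e1 : ∀ b : Fin n → B, ∑ b' : Fin n → B, ∏ i,
        (K i (fun j => p.1 j, fun j => b j, fun j => p.2 j)
          (fun j => q.1 j, fun j => b' j, fun j => q.2 j) *
          Q i (fun j => b' j) (fun j => b j)) =
        ∏ i, ∑ b', K i (fun j => p.1 j, fun j => b j, fun j => p.2 j)
          (fun j => q.1 j, b', fun j => q.2 j) * Q i b' (fun j => b j) := by
      intro b
      exact sum_blk π fun i b' => K i (fun j => p.1 j, fun j => b j, fun j => p.2 j)
          (fun j => q.1 j, b', fun j => q.2 j) * Q i b' (fun j => b j)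
    simp only [e1]
    exact sum_blk π fun i b => ∑ b', K i (fun j => p.1 j, b, fun j => p.2 j)
          (fun j => q.1 j, b', fun j => q.2 j) * Q i b' b
  refine ⟨L, ?_, ?_, ?_⟩
  · rw [hL]
    exact (piD_posSemidef fun i => (hK i).1).submatrix
      (fun (p : (Fin n → A) × (Fin n → B) × (Fin n → B)) (i : Fin m) =>
        ((fun j => p.1 j, fun j => p.2.1 j, fun j => p.2.2 j) :
          ({j // π j = i} → A) × ({j // π j = i} → B) × ({j // π j = i} → B)))
  · rw [eL]
    exact bprod_mono π (fun i => ctrL_posSemidef (hK i).1 (hQ i)) fun i => (hK i).2.1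
  · rw [eM, Complex.ofReal_prod, ← bprod_smul]
    exact bprod_mono π hR fun i => (hK i).2.2

theorem ext_toK {X Y : Type} [Fintype X] [DecidableEq X] [Fintype Y] [DecidableEq Y]
    {R : Matrix (X × Y) (X × Y) ℂ} {Q : Matrix Y Y ℂ} {K : Matrix (X × Y × Y) (X × Y × Y) ℂ}
    (h : IsExt R Q K) : IsExtK 1 R Q K := by
  obtain ⟨h1, h2, h3⟩ := h
  refine ⟨h1, ?_, ?_⟩
  · have e : ctrL K Q = R := by
      ext p q
      exact h2 _ _ _ _
    rw [e, sub_self]
    exact PosSemidef.zero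
  · have e : ctrM K Q = R := by
      ext p q
      exact h3 _ _ _ _
    rw [e, Complex.ofReal_one, one_smul, sub_self]
    exact PosSemidef.zero

theorem extK_mono {X Y : Type} [Fintype X] [DecidableEq X] [Fintype Y] [DecidableEq Y]
    {R : Matrix (X × Y) (X × Y) ℂ} {Q : Matrix Y Y ℂ} {K : Matrix (X × Y × Y) (X × Y × Y) ℂ}
    {κ κ' : ℝ} (h : IsExtK κ R Q K) (hQ : Q.PosSemidef) (hκ : κ ≤ κ') : IsExtK κ' R Q K := by
  obtain ⟨h1, h2, h3⟩ := h
  refine ⟨h1, h2, ?_⟩
  have h4 := h3.add ((ctrM_posSemidef h1 hQ).smul (Complex.zero_le_real.mpr (sub_nonneg.mpr hκ)))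
  refine (congrArg Matrix.PosSemidef ?_).mp h4
  push_cast
  module

/-- Change of the filter by a factor. -/
theorem extK_near {X Y : Type} [Fintype X] [DecidableEq X] [Fintype Y] [DecidableEq Y]
    {R : Matrix (X × Y) (X × Y) ℂ} {P G : Matrix Y Y ℂ} {K : Matrix (X × Y × Y) (X × Y × Y) ℂ}
    {κ c : ℝ} (h : IsExtK κ R P K) (hκ : 0 ≤ κ) (hc : 0 < c) (h1 : (G - P).PosSemidef)
    (h2 : ((c : ℂ) • P - G).PosSemidef) : IsExtK (c * κ) R G (((c⁻¹ : ℝ) : ℂ) • K) := by
  obtain ⟨k1, k2, k3⟩ := h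
  have csm : ∀ (c : ℂ) (Z : Matrix Y Y ℂ), ctrL (c • K) Z = c • ctrL K Z := by
    intro c Z
    ext x y
    simp only [ctrL, Matrix.smul_apply, smul_eq_mul, Finset.mul_sum, mul_assoc]
  have csm' : ∀ (c : ℂ) (Z : Matrix Y Y ℂ), ctrM (c • K) Z = c • ctrM K Z := by
    intro c Z
    ext x y
    simp only [ctrM, Matrix.smul_apply, smul_eq_mul, Finset.mul_sum, mul_assoc]
  have e1 : ctrL K ((c : ℂ) • P - G) = (c : ℂ) • ctrL K P - ctrL K G := by
    ext x y
    simp only [ctrL, Matrix.sub_apply, Matrix.smul_apply, smul_eq_mul, Finset.mul_sum, mul_sub,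
      Finset.sum_sub_distrib]
    congr 1
    refine Finset.sum_congr rfl fun _ _ => Finset.sum_congr rfl fun _ _ => ?_
    ring
  have e2 : ctrM K (G - P) = ctrM K G - ctrM K P := by
    ext x y
    simp only [ctrM, Matrix.sub_apply, mul_sub, Finset.sum_sub_distrib]
  refine ⟨k1.smul (by exact_mod_cast (inv_pos.mpr hc).le), ?_, ?_⟩
  · have h3 := ctrL_posSemidef k1 h2
    rw [e1] at h3
    have h4 := k2.add (h3.smul (Complex.zero_le_real.mpr (inv_pos.mpr hc).le))
    refine (congrArg Matrix.PosSemidef ?_).mp h4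
    rw [csm, smul_sub, smul_smul, ← Complex.ofReal_mul, inv_mul_cancel₀ hc.ne',
      Complex.ofReal_one, one_smul]
    abel
  · have h3 := ctrM_posSemidef k1 h1
    rw [e2] at h3
    have h4 := k3.add (h3.smul (Complex.zero_le_real.mpr hκ))
    refine (congrArg Matrix.PosSemidef ?_).mp h4
    have e3 : ((c * κ : ℝ) : ℂ) * ((c⁻¹ : ℝ) : ℂ) = (κ : ℂ) := by
      rw [← Complex.ofReal_mul]
      congr 1
      field_simp
    rw [csm', smul_sub, smul_smul, e3]
    abel

/-- The free block. -/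
theorem free_ext {ι : Type} [Fintype ι] [DecidableEq ι] {ρ : Matrix (A × B) (A × B) ℂ}
    {lo hi : ℝ} (hlo : 0 < lo) (hlohi : lo ≤ hi) (h1 : (ρ - (lo : ℂ) • 1).PosSemidef)
    (h2 : ((hi : ℂ) • 1 - ρ).PosSemidef) {M : ℕ} (hM : Fintype.card ι ≤ M)
    {Q : Matrix (ι → B) (ι → B) ℂ} (hQ : Q.PosSemidef) (h0 : Q.trace ≠ 0) :
    ∃ K, IsExtK ((hi / lo) ^ M) (cop ι ρ) Q K := by
  have hρ : ρ.PosSemidef := by
    have h4 : ρ = (ρ - (lo : ℂ) • 1) + (lo : ℂ) • (1 : Matrix _ _ ℂ) := by abel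
    rw [h4]
    exact h1.add (PosSemidef.one.smul (by exact_mod_cast hlo.le))
  obtain ⟨K, hK⟩ := ext_smul_one (X := ι → A) (pow_nonneg hlo.le (Fintype.card ι)) hQ h0
  have h3 := cop_low ι hlo.le h1
  have h4 := cop_high ι hρ h2
  have h5 : hi ^ Fintype.card ι ≤ (hi / lo) ^ M * lo ^ Fintype.card ι := by
    have h6 : 1 ≤ hi / lo := (one_le_div hlo).mpr hlohi
    calc hi ^ Fintype.card ι = (hi / lo) ^ Fintype.card ι * lo ^ Fintype.card ι := by
          rw [div_pow, div_mul_cancel₀ _ (pow_pos hlo _).ne']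
      _ ≤ _ := mul_le_mul_of_nonneg_right
          (pow_le_pow_right₀ h6 hM) (pow_nonneg hlo.le _)
  have h7 := h4.add ((PosSemidef.one (n := (ι → A) × (ι → B)) (R := ℂ)).smul
    (Complex.zero_le_real.mpr (sub_nonneg.mpr h5)))
  have h8 : (((((hi / lo) ^ M : ℝ)) : ℂ) • (((lo ^ Fintype.card ι : ℝ) : ℂ) •
      (1 : Matrix ((ι → A) × (ι → B)) ((ι → A) × (ι → B)) ℂ)) - cop ι ρ).PosSemidef := by
    refine (congrArg Matrix.PosSemidef ?_).mp h7
    push_cast
    module
  have h9 := hK.extK (pow_nonneg (div_nonneg (hlo.le.trans hlohi) hlo.le) M) one_pos h3 h8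
    (by rw [sub_self]; exact PosSemidef.zero)
    (by rw [Complex.ofReal_one, one_smul, sub_self]; exact PosSemidef.zero)
  rw [one_mul] at h9
  exact ⟨_, h9⟩

/-- Extensions relative to the filters of the class. -/
theorem ext_all {n N M S : ℕ} {c α κ : ℝ} {ρ : Matrix (A × B) (A × B) ℂ} {lo hi : ℝ}
    (hlo : 0 < lo) (hlohi : lo ≤ hi) (hc : 0 < c) (h1 : (ρ - (lo : ℂ) • 1).PosSemidef)
    (h2 : ((hi : ℂ) • 1 - ρ).PosSemidef) (h12 : hi ≤ 2 * lo) (hN : hi ^ N ≤ 2 * lo ^ N)
    (hκ : 1 ≤ κ) (hα : S = 0 ∨ 8 * (hi / lo - 1) ≤ α)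
    {b : Bool} {P : Matrix B B ℂ → Prop} (hP : Comp b ρ P)
    {G : Matrix (Fin n → B) (Fin n → B) ℂ} (hG0 : G.PosSemidef)
    (hG : NearFilterBlocks P N M S α κ c G) :
    G = 0 ∨ ∃ L, IsExtK (c * ((hi / lo) ^ M * (3 * κ ^ 2) ^ S)) (cop (Fin n) ρ) G L := by
  obtain ⟨R, ⟨m, π, J, Q, hc0, hJ, hcN, hQ, hR⟩, hGR, hRG⟩ := hG
  have hρ : ρ.PosSemidef := by
    have h4 : ρ = (ρ - (lo : ℂ) • 1) + (lo : ℂ) • (1 : Matrix _ _ ℂ) := by abel
    rw [h4]
    exact h1.add (PosSemidef.one.smul (by exact_mod_cast hlo.le))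
  have hhl : 1 ≤ hi / lo := (one_le_div hlo).mpr hlohi
  have hk3 : 1 ≤ 3 * κ ^ 2 := by nlinarith
  by_cases h0 : ∃ i, (Q i).trace = 0
  · left
    obtain ⟨i, hi⟩ := h0
    have hQi : Q i = 0 := (hQ i).trace_eq_zero_iff.mp hi
    have hP0 : R = 0 := by
      ext p q
      rw [hR, Matrix.zero_apply]
      exact Finset.prod_eq_zero (Finset.mem_univ i) (by rw [hQi, Matrix.zero_apply])
    rw [hP0, smul_zero, zero_sub] at hRG
    have h3 := hRG.trace_nonneg
    have h4 := hG0.trace_nonneg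
    rw [trace_neg] at h3
    exact hG0.trace_eq_zero_iff.mp (le_antisymm (neg_nonneg.mp h3) h4)
  · right
    push Not at h0
    have hext : ∀ i, ∃ K, IsExtK ((if i = 0 then (hi / lo) ^ M else 1) *
        (if i ∈ J then 3 * κ ^ 2 else 1)) (cop {j // π j = i} ρ) (Q i) K := by
      intro i
      have hJ1 : 1 ≤ (if i ∈ J then 3 * κ ^ 2 else 1) := by
        split_ifs
        · exact hk3
        · exact le_rfl
      by_cases hi0 : i = 0
      · subst hi0
        obtain ⟨K, hK⟩ := free_ext hlo hlohi h1 h2 hc0 (hQ 0) (h0 0)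
        refine ⟨K, extK_mono hK (hQ 0) ?_⟩
        rw [if_pos rfl]
        exact le_mul_of_one_le_right (pow_nonneg (zero_le_one.trans hhl) M) hJ1
      · rw [if_neg hi0, one_mul]
        rcases hcN i hi0 with h3 | h3 | ⟨h3, h4⟩
        · obtain ⟨K, hK⟩ := small_ext hlo hlohi h1 h2 hN h3 (hQ i) (h0 i)
          exact ⟨K, extK_mono (ext_toK hK) (hQ i) hJ1⟩
        · obtain ⟨K, hK⟩ := code_ext' hlo h1 (by
            have h8 : (((2 * lo : ℝ) : ℂ) • 1 - ρ) = ((hi : ℂ) • 1 - ρ) +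
                (((2 * lo - hi : ℝ) : ℂ) • (1 : Matrix _ _ ℂ)) := by
              rw [Complex.ofReal_sub, sub_smul]
              abel
            rw [h8]
            exact h2.add (PosSemidef.one.smul (by exact_mod_cast sub_nonneg.mpr h12))) hP h3 (h0 i)
          exact ⟨K, extK_mono (ext_toK hK) (hQ i) hJ1⟩
        · rw [if_pos h3]
          have hS : 8 * (hi / lo - 1) ≤ α := by
            rcases hα with h5 | h5
            · exfalso
              have h6 := Finset.card_pos.mpr ⟨i, h3⟩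
              omega
            · exact h5
          rcases loc_ext hlo hlohi h1 h2 h12 hκ hS (hQ i) h4 with h5 | h5
          · exact absurd (by rw [h5]; simp) (h0 i)
          · exact h5
    have hpos : ∀ i, (cop {j // π j = i} ρ).PosSemidef := fun i =>
      (piD_posSemidef (X := fun _ : {j // π j = i} => ρ) fun _ => hρ).submatrix
        (fun (p : ({j // π j = i} → A) × ({j // π j = i} → B)) (j : {j // π j = i}) =>
          (p.1 j, p.2 j))
    obtain ⟨K, hK⟩ := extK_blocks π hpos hQ hext hR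
    have hprod : ∏ i : Fin (m + 1), ((if i = 0 then (hi / lo) ^ M else 1) *
        (if i ∈ J then 3 * κ ^ 2 else 1)) ≤ (hi / lo) ^ M * (3 * κ ^ 2) ^ S := by
      rw [Finset.prod_mul_distrib, Finset.prod_ite_eq', if_pos (Finset.mem_univ 0),
        Finset.prod_ite_mem, Finset.univ_inter, Finset.prod_const]
      exact mul_le_mul_of_nonneg_left (pow_le_pow_right₀ hk3 hJ)
        (pow_nonneg (zero_le_one.trans hhl) M)
    have hR0 : R.PosSemidef := by
      have h3 := (piD_posSemidef (X := Q) hQ).submatrix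
        (fun (p : Fin n → B) (i : Fin (m + 1)) => (fun j => p j : {j // π j = i} → B))
      refine (congrArg Matrix.PosSemidef ?_).mp h3
      ext p q
      rw [hR]
      rfl
    have hK' := extK_mono hK hR0 hprod
    rw [← cop_eq_bprod] at hK'
    exact ⟨_, extK_near hK' (mul_nonneg (pow_nonneg (zero_le_one.trans hhl) M)
      (pow_nonneg (zero_le_one.trans hk3) S)) hc hGR hRG⟩

/-- No key for the filters of the class. -/
theorem all_filters {ρ : Matrix (A × B) (A × B) ℂ} {lo hi c α κ : ℝ} {N M S : ℕ}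
    (htr : ρ.trace = 1) (hlo : 0 < lo) (h1 : (ρ - (lo : ℂ) • 1).PosSemidef)
    (h2 : ((hi : ℂ) • 1 - ρ).PosSemidef) (h12 : hi ≤ 2 * lo) (hN : hi ^ N ≤ 2 * lo ^ N)
    (hc : 0 < c) (hκ : 1 ≤ κ) (hα : S = 0 ∨ 8 * (hi / lo - 1) ≤ α)
    {b b' : Bool} {PA : Matrix A A ℂ → Prop} {PB : Matrix B B ℂ → Prop}
    (hPA : Comp b (ρ.submatrix (Prod.swap : B × A → A × B) Prod.swap) PA) (hPB : Comp b' ρ PB)
    (Ψ : Matrix (A × B) E ℂ) (hΨ : Ψ * Ψᴴ = ρ) (n ℓ : ℕ) (T : Type)
    [Fintype T] (f : T → (Fin ℓ → Bool) → Matrix (Fin n → A) (Fin n → A) ℂ)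
    (g : T → (Fin ℓ → Bool) → Matrix (Fin n → B) (Fin n → B) ℂ) (ε : ℝ)
    (hL : LOCC (Fin ℓ → Bool) (Fin n → A) (Fin n → B) T f g)
    (hprod : ∀ t, NearFilterBlocks PA N M S α κ c (∑ k, f t k) ∨
      NearFilterBlocks PB N M S α κ c (∑ k, g t k))
    (herr : KeyError f g (copies n Ψ) ε) :
    1 - ε ≤ c * (hi / lo) ^ M * (3 * κ ^ 2) ^ S * ((2 ^ ℓ)⁻¹ + ε) := by
  have hne : Nonempty (A × B) := by
    by_contra hcon
    rw [not_nonempty_iff] at hcon
    rw [Matrix.trace, Finset.univ_eq_empty, Finset.sum_empty] at htr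
    exact zero_ne_one htr
  have hlohi : lo ≤ hi := by
    obtain ⟨p⟩ := hne
    have h3 := (h1.add h2).diag_nonneg (i := p)
    have h4 : ((ρ - (lo : ℂ) • 1) + ((hi : ℂ) • 1 - ρ)) p p = ((hi - lo : ℝ) : ℂ) := by
      simp only [Matrix.add_apply, Matrix.sub_apply, Matrix.smul_apply, Matrix.one_apply_eq,
        smul_eq_mul]
      push_cast
      ring
    rw [h4, Complex.zero_le_real] at h3
    linarith
  have hW : copies n Ψ * (copies n Ψ)ᴴ = cop (Fin n) ρ := by
    rw [copies_mul, hΨ]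
    rfl
  have hlown := cop_low (Fin n) hlo.le h1
  have hunit : ∃ W', (copies n Ψ * (copies n Ψ)ᴴ) * W' = 1 := by
    rw [hW]
    have h3 : (cop (Fin n) ρ).PosDef := by
      have h4 : cop (Fin n) ρ = ((lo ^ Fintype.card (Fin n) : ℝ) : ℂ) •
          (1 : Matrix ((Fin n → A) × (Fin n → B)) ((Fin n → A) × (Fin n → B)) ℂ) +
            (cop (Fin n) ρ - ((lo ^ Fintype.card (Fin n) : ℝ) : ℂ) • 1) := by abel
      rw [h4]
      exact (PosDef.one.smul (by exact_mod_cast pow_pos hlo _)).add_posSemidef hlown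
    exact ⟨(cop (Fin n) ρ)⁻¹, Matrix.mul_nonsing_inv _
      ((Matrix.isUnit_iff_isUnit_det _).mp h3.isUnit)⟩
  obtain ⟨W', hW'⟩ := hunit
  obtain ⟨hf, hg⟩ := Lim.locc_psd hL
  -- exchange of the parties
  have hρ' : (ρ.submatrix (Prod.swap : B × A → A × B) Prod.swap - (lo : ℂ) • 1).PosSemidef := by
    have h3 := h1.submatrix (Prod.swap : B × A → A × B)
    have h4 : (ρ - (lo : ℂ) • 1).submatrix (Prod.swap : B × A → A × B) Prod.swap =
        ρ.submatrix Prod.swap Prod.swap - (lo : ℂ) • 1 := by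
      ext p q
      simp only [submatrix_apply, Matrix.sub_apply, Matrix.smul_apply, Matrix.one_apply,
        Prod.swap_injective.eq_iff]
    rwa [h4] at h3
  have hρ'' : ((hi : ℂ) • 1 - ρ.submatrix (Prod.swap : B × A → A × B)
      Prod.swap).PosSemidef := by
    have h3 := h2.submatrix (Prod.swap : B × A → A × B)
    have h4 : ((hi : ℂ) • 1 - ρ).submatrix (Prod.swap : B × A → A × B) Prod.swap =
        (hi : ℂ) • 1 - ρ.submatrix Prod.swap Prod.swap := by
      ext p q
      simp only [submatrix_apply, Matrix.sub_apply, Matrix.smul_apply, Matrix.one_apply,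
        Prod.swap_injective.eq_iff]
    rwa [h4] at h3
  have hhl : 0 ≤ hi / lo := div_nonneg (hlo.trans_le hlohi).le hlo.le
  have hκ0 : 0 ≤ c * ((hi / lo) ^ M * (3 * κ ^ 2) ^ S) :=
    mul_nonneg hc.le (mul_nonneg (pow_nonneg hhl M) (pow_nonneg (by positivity) S))
  have hkey := key_bound (copies n Ψ) hW' f g hf hg hκ0 (fun t => ?_) herr
  · have hcard : (Fintype.card (Fin ℓ → Bool) : ℝ) = 2 ^ ℓ := by simp
    rw [hcard] at hkey
    rwa [mul_assoc c]
  · rcases hprod t with h | h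
    · left
      rcases ext_all hlo hlohi hc hρ' hρ'' h12 hN hκ hα hPA (posSemidef_sum _ fun k _ => hf t k) h
        with h0 | h0
      · exact Or.inl h0
      · right
        rw [hW]
        exact h0
    · right
      rw [hW]
      exact ext_all hlo hlohi hc h1 h2 h12 hN hκ hα hPB (posSemidef_sum _ fun k _ => hg t k) h

end Vale.Agent.P372.H795
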