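import Vale.Agent.P372.H795.Special
import Vale.Agent.P372.BF.Final

open Matrix Kronecker
open scoped ComplexOrder MatrixOrder

set_option linter.unusedSectionVars false

namespace Vale.Agent.P372.H795

open Vale.Agent.P372 Vale.Agent.P372.BF Vale.Agent.P372.H23

theorem ppt_swapComb (d k : ℕ) (s : ℝ) : ∃ c : Fin 4 → ℂ, pptState d k s = swapComb c := by
  refine ⟨![((d : ℂ) ^ 2 * (k : ℂ) ^ 2 - (s : ℂ) * ((d : ℂ) ^ 2 - (d : ℂ)))⁻¹, 0,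
    -((s : ℂ) / (k : ℂ) * ((d : ℂ) ^ 2 * (k : ℂ) ^ 2 - (s : ℂ) * ((d : ℂ) ^ 2 - (d : ℂ)))⁻¹),
    (s : ℂ) / (k : ℂ) * ((d : ℂ) ^ 2 * (k : ℂ) ^ 2 - (s : ℂ) * ((d : ℂ) ^ 2 - (d : ℂ)))⁻¹], ?_⟩
  ext p q
  have e1 : (if p = q then (1 : ℂ) else 0) = (if p.1.1 = q.1.1 ∧ p.2.1 = q.2.1 then 1 else 0) *
      (if p.1.2 = q.1.2 ∧ p.2.2 = q.2.2 then 1 else 0) := by
    obtain ⟨⟨a, b⟩, ⟨a', b'⟩⟩ := p
    obtain ⟨⟨x, y⟩, ⟨x', y'⟩⟩ := q
    simp only [Prod.mk.injEq]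
    by_cases h1 : a = x <;> by_cases h2 : b = y <;> by_cases h3 : a' = x' <;>
      by_cases h4 : b' = y' <;> simp [h1, h2, h3, h4]
  rw [pptState, e1]
  simp only [swapComb, Matrix.cons_val]
  rw [div_eq_mul_inv]
  ring

/-- Codes for PPT entangled states. -/
theorem ppt_codes (d k : ℕ) (s : ℝ) (hk : 6 ≤ k) (hd : k < d)
    (h : (k : ℝ) * d - 1 < s * (k + 1) * (d - 1)) (hs1 : s < 1) :
    (pptState d k s).PosDef ∧ (pTrans (pptState d k s)).PosDef ∧ (pptState d k s).trace = 1 ∧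
    ¬ IsSep (pptState d k s) ∧
    ∀ (E : Type) [Fintype E] [DecidableEq E]
      (Ψ : Matrix ((Fin d × Fin k) × (Fin d × Fin k)) E ℂ), Ψ * Ψᴴ = pptState d k s →
      ∀ (N M : ℕ) (c : ℝ), (k + 2 * s) ^ N ≤ 2 * (k - 2 * s) ^ N → 0 < c →
      ∀ (n ℓ : ℕ) (T : Type) [Fintype T]
        (f g : T → (Fin ℓ → Bool) →
          Matrix (Fin n → Fin d × Fin k) (Fin n → Fin d × Fin k) ℂ) (ε : ℝ),
        LOCC (Fin ℓ → Bool) (Fin n → Fin d × Fin k) (Fin n → Fin d × Fin k) T f g →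
        (∀ t, NearCodeBlocks LocalPair N M c (∑ k, f t k) ∨
          NearCodeBlocks LocalPair N M c (∑ k, g t k)) →
        KeyError f g (copies n Ψ) ε →
        1 - ε ≤ c * ((k + 2 * s) / (k - 2 * s)) ^ M * ((2 ^ ℓ)⁻¹ + ε) := by
  obtain ⟨h1, h2, h3, h4, -⟩ := Lim.ppt_key d k s (by omega) hd h hs1
  refine ⟨h1, h2, h3, h4, ?_⟩
  intro E _ _ Ψ hΨ N M c hN hc n ℓ T _ f g ε hL hprod herr
  have hk0 : 0 < k := by omega
  have hs : 0 < s := Lim.ppt_pos hk0 hd h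
  have hq := Lim.ppt_norm_pos hk0 hd hs1
  obtain ⟨b1, b2, b3⟩ := Lim.ppt_bounds hk0 hd hs1 hs.le
  have hkR : (0 : ℝ) < k := by exact_mod_cast hk0
  have hk6 : (6 : ℝ) ≤ k := by exact_mod_cast hk
  have hlt : 0 < 1 - 2 * s / k := by
    rw [sub_pos, div_lt_one hkR]
    linarith
  have hlo : 0 < (1 - 2 * s / k) * ((d : ℝ) ^ 2 * k ^ 2 - s * (d ^ 2 - d))⁻¹ :=
    mul_pos hlt (inv_pos.mpr hq)
  have e1 : (1 + 2 * s / k) = (k + 2 * s) / (k : ℝ) := by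
    rw [add_div, div_self hkR.ne']
  have e2 : (1 - 2 * s / k) = (k - 2 * s) / (k : ℝ) := by
    rw [sub_div, div_self hkR.ne']
  have h12 : (1 + 2 * s / k) * ((d : ℝ) ^ 2 * k ^ 2 - s * (d ^ 2 - d))⁻¹ ≤
      2 * ((1 - 2 * s / k) * ((d : ℝ) ^ 2 * k ^ 2 - s * (d ^ 2 - d))⁻¹) := by
    rw [← mul_assoc]
    refine mul_le_mul_of_nonneg_right ?_ (inv_pos.mpr hq).le
    rw [e1, e2, ← mul_div_assoc]
    refine div_le_div_of_nonneg_right ?_ hkR.le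
    linarith
  have hNN : ((1 + 2 * s / k) * ((d : ℝ) ^ 2 * k ^ 2 - s * (d ^ 2 - d))⁻¹) ^ N ≤
      2 * ((1 - 2 * s / k) * ((d : ℝ) ^ 2 * k ^ 2 - s * (d ^ 2 - d))⁻¹) ^ N := by
    rw [mul_pow, mul_pow, ← mul_assoc]
    refine mul_le_mul_of_nonneg_right ?_ (pow_nonneg (inv_pos.mpr hq).le N)
    rw [e1, e2, div_pow, div_pow, ← mul_div_assoc]
    exact div_le_div_of_nonneg_right hN (pow_nonneg hkR.le N)
  obtain ⟨x, hx⟩ := ppt_swapComb d k s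
  have hA : Comp true ((pptState d k s).submatrix Prod.swap Prod.swap) LocalPair := by
    rw [hx, swapComb_swap]
    exact swapComb_comp x
  have hB : Comp true (pptState d k s) LocalPair := by
    rw [hx]
    exact swapComb_comp x
  have hfin := near_filters (M := M) b1 hlo b2 b3 h12 hNN hc hA hB Ψ hΨ n ℓ T f g ε hL hprod herr
  have hratio : (1 + 2 * s / k) * ((d : ℝ) ^ 2 * k ^ 2 - s * (d ^ 2 - d))⁻¹ /
      ((1 - 2 * s / k) * ((d : ℝ) ^ 2 * k ^ 2 - s * (d ^ 2 - d))⁻¹) =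
      (k + 2 * s) / (k - 2 * s) := by
    rw [mul_div_mul_right _ _ (inv_pos.mpr hq).ne']
    have h5 : (k : ℝ) - 2 * s ≠ 0 := by
      have : (0 : ℝ) < k - 2 * s := by linarith
      exact this.ne'
    have h6 : (1 : ℝ) - 2 * s / k ≠ 0 := hlt.ne'
    rw [div_eq_div_iff h6 h5]
    field_simp
  rwa [hratio] at hfin

end Vale.Agent.P372.H795
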