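import Vale.Agent.P372.H795.Blocks3
import Vale.Agent.P372.H795.Final

open Matrix Kronecker
open scoped ComplexOrder MatrixOrder

set_option linter.unusedSectionVars false

namespace Vale.Agent.P372.H795

open Vale.Agent.P372 Vale.Agent.P372.BF Vale.Agent.P372.H23

/-- Codes and locally product filters for PPT entangled states. -/
theorem ppt_all (d k : ℕ) (s : ℝ) (hk : 6 ≤ k) (hd : k < d)
    (h : (k : ℝ) * d - 1 < s * (k + 1) * (d - 1)) (hs1 : s < 1)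
    (E : Type) [Fintype E] [DecidableEq E]
    (Ψ : Matrix ((Fin d × Fin k) × (Fin d × Fin k)) E ℂ) (hΨ : Ψ * Ψᴴ = pptState d k s)
    (N M S : ℕ) (α κ c : ℝ) (hN : (k + 2 * s) ^ N ≤ 2 * (k - 2 * s) ^ N)
    (hα : S = 0 ∨ 32 * s ≤ α * (k - 2 * s)) (hκ : 1 ≤ κ) (hc : 0 < c)
    (n ℓ : ℕ) (T : Type) [Fintype T]
    (f g : T → (Fin ℓ → Bool) → Matrix (Fin n → Fin d × Fin k) (Fin n → Fin d × Fin k) ℂ) (ε : ℝ)
    (hL : LOCC (Fin ℓ → Bool) (Fin n → Fin d × Fin k) (Fin n → Fin d × Fin k) T f g)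
    (hprod : ∀ t, NearFilterBlocks LocalPair N M S α κ c (∑ k, f t k) ∨
      NearFilterBlocks LocalPair N M S α κ c (∑ k, g t k))
    (herr : KeyError f g (copies n Ψ) ε) :
    1 - ε ≤ c * ((k + 2 * s) / (k - 2 * s)) ^ M * (3 * κ ^ 2) ^ S * ((2 ^ ℓ)⁻¹ + ε) := by
  have hk0 : 0 < k := by omega
  have hs : 0 < s := Lim.ppt_pos hk0 hd h
  have hq := Lim.ppt_norm_pos hk0 hd hs1
  obtain ⟨b1, b2, b3⟩ := Lim.ppt_bounds hk0 hd hs1 hs.le
  have hkR : (0 : ℝ) < k := by exact_mod_cast hk0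
  have hk6 : (6 : ℝ) ≤ k := by exact_mod_cast hk
  have hlt : 0 < 1 - 2 * s / k := by
    rw [sub_pos, div_lt_one hkR]
    linarith
  have hlo : 0 < (1 - 2 * s / k) * ((d : ℝ) ^ 2 * k ^ 2 - s * (d ^ 2 - d))⁻¹ :=
    mul_pos hlt (inv_pos.mpr hq)
  have e1 : (1 + 2 * s / k) = (k + 2 * s) / (k : ℝ) := by
    rw [add_div, div_self hkR.ne']
  have e2 : (1 - 2 * s / k) = (k - 2 * s) / (k : ℝ) := by
    rw [sub_div, div_self hkR.ne']
  have h12 : (1 + 2 * s / k) * ((d : ℝ) ^ 2 * k ^ 2 - s * (d ^ 2 - d))⁻¹ ≤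
      2 * ((1 - 2 * s / k) * ((d : ℝ) ^ 2 * k ^ 2 - s * (d ^ 2 - d))⁻¹) := by
    rw [← mul_assoc]
    refine mul_le_mul_of_nonneg_right ?_ (inv_pos.mpr hq).le
    rw [e1, e2, ← mul_div_assoc]
    refine div_le_div_of_nonneg_right ?_ hkR.le
    linarith
  have hNN : ((1 + 2 * s / k) * ((d : ℝ) ^ 2 * k ^ 2 - s * (d ^ 2 - d))⁻¹) ^ N ≤
      2 * ((1 - 2 * s / k) * ((d : ℝ) ^ 2 * k ^ 2 - s * (d ^ 2 - d))⁻¹) ^ N := by
    rw [mul_pow, mul_pow, ← mul_assoc]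
    refine mul_le_mul_of_nonneg_right ?_ (pow_nonneg (inv_pos.mpr hq).le N)
    rw [e1, e2, div_pow, div_pow, ← mul_div_assoc]
    exact div_le_div_of_nonneg_right hN (pow_nonneg hkR.le N)
  obtain ⟨x, hx⟩ := ppt_swapComb d k s
  have hA : Comp true ((pptState d k s).submatrix Prod.swap Prod.swap) LocalPair := by
    rw [hx, swapComb_swap]
    exact swapComb_comp x
  have hB : Comp true (pptState d k s) LocalPair := by
    rw [hx]
    exact swapComb_comp x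
  have h5 : (0 : ℝ) < k - 2 * s := by linarith
  have hratio : (1 + 2 * s / k) * ((d : ℝ) ^ 2 * k ^ 2 - s * (d ^ 2 - d))⁻¹ /
      ((1 - 2 * s / k) * ((d : ℝ) ^ 2 * k ^ 2 - s * (d ^ 2 - d))⁻¹) =
      (k + 2 * s) / (k - 2 * s) := by
    rw [mul_div_mul_right _ _ (inv_pos.mpr hq).ne']
    have h6 : (1 : ℝ) - 2 * s / k ≠ 0 := hlt.ne'
    rw [div_eq_div_iff h6 h5.ne']
    field_simp
  have hα' : S = 0 ∨ 8 * ((1 + 2 * s / k) * ((d : ℝ) ^ 2 * k ^ 2 - s * (d ^ 2 - d))⁻¹ /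
      ((1 - 2 * s / k) * ((d : ℝ) ^ 2 * k ^ 2 - s * (d ^ 2 - d))⁻¹) - 1) ≤ α := by
    rcases hα with h6 | h6
    · exact Or.inl h6
    · right
      rw [hratio]
      have e3 : 8 * ((k + 2 * s) / (k - 2 * s) - 1) = 32 * s / (k - 2 * s) := by
        field_simp
        ring
      rw [e3, div_le_iff₀ h5]
      exact h6
  have hfin := all_filters (M := M) b1 hlo b2 b3 h12 hNN hc hκ hα' hA hB Ψ hΨ n ℓ T f g ε hL hprod
    herr
  rwa [hratio] at hfin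

end Vale.Agent.P372.H795
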