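import Vale.Agent.P372.H795.LocDefs
import Vale.Agent.P372.H795.Code

open Matrix Kronecker
open scoped ComplexOrder MatrixOrder

set_option linter.unusedSectionVars false

namespace Vale.Agent.P372.H795

open Vale.Agent.P372 Vale.Agent.P372.BF Vale.Agent.P372.H23

variable {A B : Type} [Fintype A] [DecidableEq A] [Fintype B] [DecidableEq B] {ι : Type}
  [Fintype ι] [DecidableEq ι]

/-- Product of site operators. -/
def sp (M : ι → Matrix (A × B) (A × B) ℂ) :
    Matrix ((ι → A) × (ι → B)) ((ι → A) × (ι → B)) ℂ :=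
  fun p q => ∏ i, M i (p.1 i, p.2 i) (q.1 i, q.2 i)

/-- `E` on the copies outside `T`, `Y` on Alice's copies in `T`. -/
def VT (T : Finset (ι)) (E : ι → Matrix (A × B) (A × B) ℂ)
    (Y : Matrix ({j // j ∈ T} → A) ({j // j ∈ T} → A) ℂ) :
    Matrix ((ι → A) × (ι → B)) ((ι → A) × (ι → B)) ℂ :=
  fun p q => (∏ j : {j // j ∉ T}, E j (p.1 j, p.2 j) (q.1 j, q.2 j)) *
    ((if (fun j : {j // j ∈ T} => p.2 j) = (fun j : {j // j ∈ T} => q.2 j) then 1 else 0) *
      Y (fun j => p.1 j) (fun j => q.1 j))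

theorem VT_posSemidef (T : Finset (ι)) {E : ι → Matrix (A × B) (A × B) ℂ}
    (hE : ∀ i, (E i).PosSemidef) {Y : Matrix ({j // j ∈ T} → A) ({j // j ∈ T} → A) ℂ}
    (hY : Y.PosSemidef) : (VT T E Y).PosSemidef := by
  have h1 := (piD_posSemidef (X := fun j : {j // j ∉ T} => E j) fun j => hE j).kronecker
    ((PosSemidef.one (n := {j // j ∈ T} → B) (R := ℂ)).kronecker hY)
  have h2 := h1.submatrix (fun p : (ι → A) × (ι → B) =>
    ((fun j : {j // j ∉ T} => (p.1 j, p.2 j)),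
      ((fun j : {j // j ∈ T} => p.2 j), (fun j : {j // j ∈ T} => p.1 j))))
  exact h2

theorem VT_sub (T : Finset (ι)) (E : ι → Matrix (A × B) (A × B) ℂ)
    (Y Y' : Matrix ({j // j ∈ T} → A) ({j // j ∈ T} → A) ℂ) :
    VT T E (Y - Y') = VT T E Y - VT T E Y' := by
  ext p q
  simp only [VT, Matrix.sub_apply]
  ring

theorem VT_smul (T : Finset (ι)) (E : ι → Matrix (A × B) (A × B) ℂ) (c : ℂ)
    (Y : Matrix ({j // j ∈ T} → A) ({j // j ∈ T} → A) ℂ) :
    VT T E (c • Y) = c • VT T E Y := by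
  ext p q
  simp only [VT, Matrix.smul_apply, smul_eq_mul]
  ring

theorem prod_eq_ite' {ι D : Type} [Fintype ι] [DecidableEq D] (p q : ι → D) :
    ∏ i, (if p i = q i then (1 : ℂ) else 0) = if p = q then 1 else 0 := by
  by_cases h : p = q
  · subst h
    simp
  · rw [if_neg h]
    obtain ⟨i, hi⟩ := Function.ne_iff.mp h
    exact Finset.prod_eq_zero (Finset.mem_univ i) (by simp [hi])

theorem sum_glue {X : Type} [Fintype X] (T : Finset (ι)) (F : (ι → X) → ℂ) :
    ∑ c, F c = ∑ x : {j // j ∈ T} → X, ∑ z : {j // j ∉ T} → X, F (glue T x z) := by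
  rw [← (Equiv.piEquivPiSubtypeProd (fun j => j ∈ T) (fun _ : ι => X)).symm.sum_comp,
    Fintype.sum_prod_type]
  rfl

theorem glue_mem {X : Type} (T : Finset (ι)) (x : {j // j ∈ T} → X) (z : {j // j ∉ T} → X)
    (i : {j // j ∈ T}) : glue T x z i = x i := by
  simp [glue, i.2]

theorem glue_notMem {X : Type} (T : Finset (ι)) (x : {j // j ∈ T} → X) (z : {j // j ∉ T} → X)
    (i : {j // j ∉ T}) : glue T x z i = z i := by
  simp [glue, i.2]

theorem prod_split (T : Finset (ι)) (F : ι → ℂ) :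
    ∏ i, F i = (∏ i : {j // j ∈ T}, F i) * ∏ i : {j // j ∉ T}, F i := by
  rw [← Finset.prod_mul_prod_compl T F, Finset.prod_subtype T (fun _ => Iff.rfl) F,
    Finset.prod_subtype Tᶜ (p := fun j => j ∉ T) (fun _ => Finset.mem_compl) F]

/-- One term of the contraction of a product. -/
theorem term_eq (T : Finset (ι)) (E : ι → Matrix (A × B) (A × B) ℂ)
    (P : Matrix (A × B) (A × B) ℂ) (G : Matrix (ι → B) (ι → B) ℂ)
    (p q : (ι → A) × (ι → B)) :
    ∑ c, ∑ c', (∏ i, (if i ∈ T then e13 P else e12 (E i)) (p.1 i, p.2 i, c i)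
      (q.1 i, q.2 i, c' i)) * G c' c =
    VT T E (ctr (cop {j // j ∈ T} P) (margOn T G)) p q := by
  have e1 : ∀ (x : {j // j ∈ T} → B) (z : {j // j ∉ T} → B) (y : {j // j ∈ T} → B)
      (w : {j // j ∉ T} → B),
      ∏ i, (if i ∈ T then e13 P else e12 (E i)) (p.1 i, p.2 i, glue T x z i)
        (q.1 i, q.2 i, glue T y w i) =
      (∏ i : {j // j ∈ T}, P (p.1 i, x i) (q.1 i, y i)) *
        (if (fun j : {j // j ∈ T} => p.2 j) = (fun j : {j // j ∈ T} => q.2 j) then 1 else 0) *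
        ((∏ i : {j // j ∉ T}, E i (p.1 i, p.2 i) (q.1 i, q.2 i)) * if z = w then 1 else 0) := by
    intro x z y w
    rw [prod_split T]
    have f1 : ∀ i : {j // j ∈ T}, (if (i : ι) ∈ T then e13 P else e12 (E i))
        (p.1 i, p.2 i, glue T x z i) (q.1 i, q.2 i, glue T y w i) =
        P (p.1 i, x i) (q.1 i, y i) * (if p.2 i = q.2 i then 1 else 0) := by
      intro i
      rw [if_pos i.2, e13_apply, glue_mem, glue_mem]
    have f2 : ∀ i : {j // j ∉ T}, (if (i : ι) ∈ T then e13 P else e12 (E i))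
        (p.1 i, p.2 i, glue T x z i) (q.1 i, q.2 i, glue T y w i) =
        E i (p.1 i, p.2 i) (q.1 i, q.2 i) * (if z i = w i then 1 else 0) := by
      intro i
      rw [if_neg i.2, e12_apply, glue_notMem, glue_notMem]
    rw [Finset.prod_congr rfl fun i _ => f1 i, Finset.prod_congr rfl fun i _ => f2 i,
      Finset.prod_mul_distrib, Finset.prod_mul_distrib, prod_eq_ite', prod_eq_ite']
  rw [sum_glue T]
  have e2 : ∀ (x : {j // j ∈ T} → B) (z : {j // j ∉ T} → B),
      ∑ c', (∏ i, (if i ∈ T then e13 P else e12 (E i)) (p.1 i, p.2 i, glue T x z i)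
      (q.1 i, q.2 i, c' i)) * G c' (glue T x z) =
      ∑ y : {j // j ∈ T} → B, (∏ i : {j // j ∈ T}, P (p.1 i, x i) (q.1 i, y i)) *
        (if (fun j : {j // j ∈ T} => p.2 j) = (fun j : {j // j ∈ T} => q.2 j) then 1 else 0) *
        (∏ i : {j // j ∉ T}, E i (p.1 i, p.2 i) (q.1 i, q.2 i)) *
        G (glue T y z) (glue T x z) := by
    intro x z
    rw [sum_glue T]
    refine Finset.sum_congr rfl fun y _ => ?_
    rw [Finset.sum_eq_single z]
    · rw [e1, if_pos (rfl : z = z), mul_one]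
    · intro w _ hw
      rw [e1, if_neg (Ne.symm hw), mul_zero, mul_zero, zero_mul]
    · simp
  simp only [e2]
  simp only [VT, ctr, cop, margOn, Finset.mul_sum]
  refine Finset.sum_congr rfl fun x _ => ?_
  rw [Finset.sum_comm]
  refine Finset.sum_congr rfl fun y _ => Finset.sum_congr rfl fun z _ => ?_
  ring

theorem onA_apply (Q : Matrix A A ℂ) (p q : A × B) :
    (onA Q : Matrix (A × B) (A × B) ℂ) p q = Q p.1 q.1 * if p.2 = q.2 then 1 else 0 := by
  rw [onA, kroneckerMap_apply, Matrix.one_apply]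

/-- Contraction of a product with a product. -/
theorem ctr_prodOn (T : Finset (ι)) (P : Matrix (A × B) (A × B) ℂ)
    (q : ι → Matrix B B ℂ) : ctr (cop {j // j ∈ T} P) (prodOn T q) =
    fun a a' => ∏ j : {j // j ∈ T}, ctr P (q j) (a j) (a' j) := by
  ext x x'
  simp only [BF.ctr, cop, prodOn]
  have h2 := Finset.prod_univ_sum (fun _ : {j // j ∈ T} => (Finset.univ : Finset B))
    (fun i b => ∑ b', P (x i, b) (x' i, b') * q i b' b)
  rw [Fintype.piFinset_univ] at h2
  rw [h2]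
  refine Finset.sum_congr rfl fun y _ => ?_
  have h3 := Finset.prod_univ_sum (fun _ : {j // j ∈ T} => (Finset.univ : Finset B))
    (fun i b' => P (x i, y i) (x' i, b') * q i b' (y i))
  rw [Fintype.piFinset_univ] at h3
  rw [h3]
  refine Finset.sum_congr rfl fun y' _ => ?_
  rw [← Finset.prod_mul_distrib]

theorem VT_prodOn (T : Finset (ι)) (E : ι → Matrix (A × B) (A × B) ℂ)
    (P : Matrix (A × B) (A × B) ℂ) (q : ι → Matrix B B ℂ) :
    VT T E (ctr (cop {j // j ∈ T} P) (prodOn T q)) =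
      sp fun i => if i ∈ T then onA (ctr P (q i)) else E i := by
  ext p p'
  rw [ctr_prodOn]
  simp only [VT, sp]
  rw [prod_split T]
  have f1 : ∀ i : {j // j ∈ T}, (if (i : ι) ∈ T then onA (ctr P (q i)) else E i)
      (p.1 i, p.2 i) (p'.1 i, p'.2 i) =
      ctr P (q i) (p.1 i) (p'.1 i) * (if p.2 i = p'.2 i then 1 else 0) := by
    intro i
    rw [if_pos i.2, onA_apply]
  have f2 : ∀ i : {j // j ∉ T}, (if (i : ι) ∈ T then onA (ctr P (q i)) else E i)
      (p.1 i, p.2 i) (p'.1 i, p'.2 i) = E i (p.1 i, p.2 i) (p'.1 i, p'.2 i) := by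
    intro i
    rw [if_neg i.2]
  rw [Finset.prod_congr rfl fun i _ => f1 i, Finset.prod_congr rfl fun i _ => f2 i,
    Finset.prod_mul_distrib, prod_eq_ite']
  ring

theorem VT_one (T : Finset (ι)) (E : ι → Matrix (A × B) (A × B) ℂ) (a : ℝ) :
    VT T E (((a ^ T.card : ℝ) : ℂ) • 1) = sp fun i => if i ∈ T then (a : ℂ) • 1 else E i := by
  ext p p'
  simp only [VT, sp]
  rw [prod_split T]
  have f1 : ∀ i : {j // j ∈ T}, (if (i : ι) ∈ T then (a : ℂ) • 1 else E i)
      (p.1 i, p.2 i) (p'.1 i, p'.2 i) =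
      (a : ℂ) * ((if p.1 i = p'.1 i then 1 else 0) * (if p.2 i = p'.2 i then 1 else 0)) := by
    intro i
    rw [if_pos i.2, Matrix.smul_apply, Matrix.one_apply, smul_eq_mul]
    by_cases h1 : p.1 i = p'.1 i <;> by_cases h2 : p.2 i = p'.2 i <;> simp [h1, h2]
  have f2 : ∀ i : {j // j ∉ T}, (if (i : ι) ∈ T then (a : ℂ) • 1 else E i)
      (p.1 i, p.2 i) (p'.1 i, p'.2 i) = E i (p.1 i, p.2 i) (p'.1 i, p'.2 i) := by
    intro i
    rw [if_neg i.2]
  rw [Finset.prod_congr rfl fun i _ => f1 i, Finset.prod_congr rfl fun i _ => f2 i,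
    Finset.prod_mul_distrib, Finset.prod_mul_distrib, prod_eq_ite', prod_eq_ite',
    Finset.prod_const, Matrix.smul_apply, Matrix.one_apply, smul_eq_mul]
  have hc : (Finset.univ : Finset {j // j ∈ T}).card = T.card := by simp
  rw [hc]
  push_cast
  ring

theorem margOn_posSemidef (T : Finset (ι)) {G : Matrix (ι → B) (ι → B) ℂ}
    (hG : G.PosSemidef) : (margOn T G).PosSemidef := by
  have h : margOn T G = ∑ z : {j // j ∉ T} → B, G.submatrix (fun x => glue T x z)
      (fun x => glue T x z) := by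
    ext x y
    rw [Matrix.sum_apply]
    rfl
  rw [h]
  exact posSemidef_sum _ fun z _ => hG.submatrix _

theorem margOn_trace (T : Finset (ι)) (G : Matrix (ι → B) (ι → B) ℂ) :
    (margOn T G).trace = G.trace := by
  simp only [Matrix.trace, Matrix.diag, margOn]
  exact (sum_glue T fun c => G c c).symm

theorem ctr_sub_left {X Y : Type} [Fintype X] [Fintype Y] (M N : Matrix (X × Y) (X × Y) ℂ)
    (Q : Matrix Y Y ℂ) : BF.ctr (M - N) Q = BF.ctr M Q - BF.ctr N Q := by
  ext x x'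
  simp only [BF.ctr, Matrix.sub_apply, sub_mul, Finset.sum_sub_distrib]

theorem ctr_sub_right {X Y : Type} [Fintype X] [Fintype Y] (M : Matrix (X × Y) (X × Y) ℂ)
    (P Q : Matrix Y Y ℂ) : BF.ctr M (P - Q) = BF.ctr M P - BF.ctr M Q := by
  ext x x'
  simp only [BF.ctr, Matrix.sub_apply, mul_sub, Finset.sum_sub_distrib]

theorem ctr_high (T : Finset (ι)) {P : Matrix (A × B) (A × B) ℂ} {r : ℝ} (hP : P.PosSemidef)
    (h : ((r : ℂ) • 1 - P).PosSemidef) {M : Matrix ({j // j ∈ T} → B) ({j // j ∈ T} → B) ℂ}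
    (hM : M.PosSemidef) :
    (M.trace • ((r ^ T.card : ℝ) : ℂ) • 1 - ctr (cop {j // j ∈ T} P) M).PosSemidef := by
  have h1 := ctr_posSemidef (cop_high {j // j ∈ T} hP h) hM
  rw [ctr_sub_left, ctr_smul_left, ctr_one', Fintype.card_coe, smul_comm] at h1
  exact h1

theorem sp_le {X : ι → Matrix (A × B) (A × B) ℂ} {ρ : Matrix (A × B) (A × B) ℂ}
    (h0 : ∀ i, (X i).PosSemidef) (h1 : ∀ i, (ρ - X i).PosSemidef) :
    (cop ι ρ - sp X).PosSemidef := by
  have h := (Near.piT_sub_piT_posSemidef (ι := ι) (C := fun _ => ρ) (D := X) h0 h1).submatrix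
    (fun (p : (ι → A) × (ι → B)) (i : ι) => (p.1 i, p.2 i))
  exact h

theorem sp_posSemidef {X : ι → Matrix (A × B) (A × B) ℂ} (h0 : ∀ i, (X i).PosSemidef) :
    (sp X).PosSemidef := by
  have h := (piD_posSemidef (X := X) h0).submatrix
    (fun (p : (ι → A) × (ι → B)) (i : ι) => (p.1 i, p.2 i))
  exact h

theorem prod_add_ite (f g : ι → ℂ) :
    ∏ i, (f i + g i) = ∑ T : Finset (ι), ∏ i, if i ∈ T then g i else f i := by
  have h1 : ∏ i, (f i + g i) = ∏ i, (g i + f i) := Finset.prod_congr rfl fun i _ => add_comm _ _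
  rw [h1, Finset.prod_add, Finset.powerset_univ]
  refine Finset.sum_congr rfl fun T _ => ?_
  rw [Finset.prod_ite]
  congr 1
  · refine Finset.prod_congr ?_ fun _ _ => rfl
    ext i
    simp
  · refine Finset.prod_congr ?_ fun _ _ => rfl
    ext i
    simp

theorem sum_sp (X Y : ι → Matrix (A × B) (A × B) ℂ) :
    ∑ T : Finset (ι), sp (fun i => if i ∈ T then Y i else X i) = sp fun i => X i + Y i := by
  ext p q
  rw [Matrix.sum_apply]
  simp only [sp, Matrix.add_apply]
  rw [prod_add_ite]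
  refine Finset.sum_congr rfl fun T _ => Finset.prod_congr rfl fun i _ => ?_
  split_ifs <;> rfl

/-- The total weight of large sets. -/
theorem tail_le {p : ℝ} (hp : 0 ≤ p) {d : ℕ} (hd : 0 < d) (h : 8 * p * (Fintype.card ι : ℝ) ≤ d) :
    ∑ T : Finset (ι), (if T.card < d then 0 else p ^ T.card) ≤ 1 / 2 := by
  have h1 : ∀ T : Finset (ι), (if T.card < d then 0 else p ^ T.card) ≤
      (4 ^ d)⁻¹ * (4 * p) ^ T.card := by
    intro T
    split_ifs with hT
    · positivity
    · push Not at hT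
      rw [mul_pow, ← mul_assoc]
      have h2 : (1 : ℝ) ≤ (4 ^ d)⁻¹ * 4 ^ T.card := by
        rw [← div_eq_inv_mul, one_le_div (by positivity)]
        exact pow_le_pow_right₀ (by norm_num) hT
      calc p ^ T.card = 1 * p ^ T.card := (one_mul _).symm
        _ ≤ _ := mul_le_mul_of_nonneg_right h2 (pow_nonneg hp _)
  have h3 : ∑ T : Finset (ι), (4 * p) ^ T.card = (4 * p + 1) ^ Fintype.card ι := by
    have h4 := Finset.sum_pow_mul_eq_add_pow (4 * p) 1 (Finset.univ : Finset (ι))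
    simpa using h4
  have h5 : (4 * p + 1) ^ Fintype.card ι ≤ 2 ^ d := by
    have h6 : (4 * p + 1) ^ Fintype.card ι ≤ Real.exp (4 * p) ^ Fintype.card ι :=
      pow_le_pow_left₀ (by positivity) (Real.add_one_le_exp _) _
    have h7 : Real.exp (4 * p) ^ Fintype.card ι = Real.exp ((Fintype.card ι : ℕ) * (4 * p)) := by rw [← Real.exp_nat_mul]
    have h8 : Real.exp ((Fintype.card ι : ℕ) * (4 * p)) ≤ Real.exp (d * (1 / 2)) :=
      Real.exp_le_exp.mpr (by linarith)
    have h9 : Real.exp (d * (1 / 2)) = Real.exp (1 / 2) ^ d := Real.exp_nat_mul _ _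
    have h10 : Real.exp (1 / 2) ≤ 2 := by
      have h11 := Real.add_one_le_exp (-(1 / 2) : ℝ)
      have h12 : Real.exp (-(1 / 2)) * Real.exp (1 / 2) = 1 := by
        rw [← Real.exp_add]
        norm_num
      nlinarith [Real.exp_pos (1 / 2)]
    calc (4 * p + 1) ^ Fintype.card ι ≤ Real.exp (1 / 2) ^ d := by rw [← h9]; exact h6.trans (h7 ▸ h8)
      _ ≤ 2 ^ d := pow_le_pow_left₀ (Real.exp_pos _).le h10 d
  calc ∑ T : Finset (ι), (if T.card < d then 0 else p ^ T.card)
      ≤ ∑ T : Finset (ι), (4 ^ d)⁻¹ * (4 * p) ^ T.card := Finset.sum_le_sum fun T _ => h1 T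
    _ = (4 ^ d)⁻¹ * (4 * p + 1) ^ Fintype.card ι := by rw [← Finset.mul_sum, h3]
    _ ≤ (4 ^ d)⁻¹ * 2 ^ d := mul_le_mul_of_nonneg_left h5 (by positivity)
    _ = (1 / 2) ^ d := by
        rw [← inv_pow, ← mul_pow]
        norm_num
    _ ≤ (1 / 2) ^ 1 := pow_le_pow_of_le_one (by norm_num) (by norm_num) hd
    _ = 1 / 2 := pow_one _

theorem prodOn_posSemidef (T : Finset (ι)) {q : ι → Matrix B B ℂ}
    (hq : ∀ i, (q i).PosSemidef) : (prodOn T q).PosSemidef :=
  piD_posSemidef (X := fun j : {j // j ∈ T} => q j) fun j => hq j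

theorem prodOn_trace (T : Finset (ι)) {q : ι → Matrix B B ℂ}
    (hq : ∀ i, (q i).trace = 1) : (prodOn T q).trace = 1 := by
  have h2 := Finset.prod_univ_sum (fun _ : {j // j ∈ T} => (Finset.univ : Finset B))
    (fun i b => q i b b)
  rw [Fintype.piFinset_univ] at h2
  have h3 : (prodOn T q).trace = ∏ i : {j // j ∈ T}, (q i).trace := h2.symm
  rw [h3]
  exact Finset.prod_eq_one fun i _ => hq i

/-- The terms with many sites are small. -/
theorem VT_high (T : Finset (ι)) {E : ι → Matrix (A × B) (A × B) ℂ}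
    {ρ P : Matrix (A × B) (A × B) ℂ} {lo r : ℝ} (hlo : 0 < lo) (hr : 0 ≤ r)
    (h1 : (ρ - (lo : ℂ) • 1).PosSemidef) (hE : ∀ i, (E i).PosSemidef)
    (hE' : ∀ i, (ρ - E i).PosSemidef) (hP : P.PosSemidef) (h : ((r : ℂ) • 1 - P).PosSemidef)
    {M : Matrix ({j // j ∈ T} → B) ({j // j ∈ T} → B) ℂ} (hM : M.PosSemidef) {t : ℝ} (ht : 0 ≤ t)
    (hMt : M.trace = (t : ℂ)) :
    (((t * (r / lo) ^ T.card : ℝ) : ℂ) • cop ι ρ -
      VT T E (ctr (cop {j // j ∈ T} P) M)).PosSemidef := by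
  have h3 := VT_posSemidef T hE (ctr_high T hP h hM)
  have h4 : VT T E (((r ^ T.card : ℝ) : ℂ) • 1) = (((r / lo) ^ T.card : ℝ) : ℂ) •
      sp fun i => if i ∈ T then (lo : ℂ) • 1 else E i := by
    rw [← VT_one, ← VT_smul, smul_smul, ← Complex.ofReal_mul, ← mul_pow, div_mul_cancel₀ _ hlo.ne']
  rw [VT_sub, VT_smul, h4, hMt] at h3
  have h5 : (cop ι ρ - sp fun i => if i ∈ T then (lo : ℂ) • 1 else E i).PosSemidef := by
    refine sp_le (fun i => ?_) fun i => ?_
    · split_ifs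
      · exact PosSemidef.one.smul (by exact_mod_cast hlo.le)
      · exact hE i
    · split_ifs
      · exact h1
      · exact hE' i
  have h6 := h5.smul (Complex.zero_le_real.mpr (mul_nonneg ht (pow_nonneg (div_nonneg hr hlo.le)
    T.card)))
  have h7 := h6.add h3
  refine (congrArg Matrix.PosSemidef ?_).mp h7
  rw [smul_smul, ← Complex.ofReal_mul, smul_sub]
  abel

/-- Extensions relative to locally product filters: the product extension works. -/
theorem loc_ext {ρ : Matrix (A × B) (A × B) ℂ} {lo hi κ : ℝ} (hlo : 0 < lo) (hlohi : lo ≤ hi)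
    (h1 : (ρ - (lo : ℂ) • 1).PosSemidef) (h2 : ((hi : ℂ) • 1 - ρ).PosSemidef)
    (h12 : hi ≤ 2 * lo) (hκ : 1 ≤ κ) {α : ℝ} (hα : 8 * (hi / lo - 1) ≤ α)
    {G : Matrix (ι → B) (ι → B) ℂ} (hG0 : G.PosSemidef) (hG : LocallyProduct α κ G) :
    G = 0 ∨ ∃ L, IsExtK (3 * κ ^ 2) (cop ι ρ) G L := by
  obtain ⟨q, hq, hT'⟩ := hG
  obtain ⟨d, hdd⟩ : ∃ d : ℕ, d = ⌊α * (Fintype.card ι : ℝ)⌋₊ + 1 := ⟨_, rfl⟩
  have hd0 : 0 < d := by omega
  have hα0 : 0 ≤ α := by
    have : 1 ≤ hi / lo := (one_le_div hlo).mpr hlohi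
    linarith
  have hαn : 0 ≤ α * (Fintype.card ι : ℝ) := mul_nonneg hα0 (Nat.cast_nonneg _)
  have hd : 8 * (hi / lo - 1) * (Fintype.card ι : ℝ) ≤ d := by
    have h3 := Nat.lt_floor_add_one (α * (Fintype.card ι : ℝ))
    have h4 := mul_le_mul_of_nonneg_right hα (Nat.cast_nonneg (α := ℝ) (Fintype.card ι))
    rw [hdd]
    push_cast
    linarith
  have hT : ∀ T : Finset ι, T.card < d →
      ((κ : ℂ) • G.trace • prodOn T q - margOn T G).PosSemidef ∧
        ((κ : ℂ) • margOn T G - G.trace • prodOn T q).PosSemidef := by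
    intro T h3
    refine hT' T ?_
    have h4 : T.card ≤ ⌊α * (Fintype.card ι : ℝ)⌋₊ := by omega
    exact (Nat.le_floor_iff hαn).mp h4
  obtain ⟨g, hg⟩ : ∃ g : ℝ, G.trace = (g : ℂ) := ⟨G.trace.re, by
    have := hG0.trace_nonneg
    rw [Complex.le_def] at this
    apply Complex.ext
    · simp
    · simpa using this.2.symm⟩
  have hg0 : 0 ≤ g := by
    have h3 := hG0.trace_nonneg
    rw [hg] at h3
    exact_mod_cast h3
  rcases hg0.eq_or_lt with hg1 | hg1
  · left
    rw [← hG0.trace_eq_zero_iff, hg, ← hg1]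
    rfl
  right
  obtain ⟨P, hP⟩ : ∃ P, P = ρ - (lo : ℂ) • (1 : Matrix (A × B) (A × B) ℂ) := ⟨_, rfl⟩
  obtain ⟨r, hr⟩ : ∃ r, r = hi - lo := ⟨_, rfl⟩
  have hP0 : P.PosSemidef := by rw [hP]; exact h1
  have hr0 : 0 ≤ r := by rw [hr]; linarith
  have hPr : ((r : ℂ) • 1 - P).PosSemidef := by
    have e : (r : ℂ) • 1 - P = (hi : ℂ) • 1 - ρ := by
      rw [hP, hr, Complex.ofReal_sub, sub_smul]
      abel
    rw [e]
    exact h2
  obtain ⟨ν, hν⟩ : ∃ ν : ι → Matrix A A ℂ, ν = fun i => ctr P (q i) := ⟨_, rfl⟩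
  have hν0 : ∀ i, (ν i).PosSemidef := by
    intro i
    rw [hν]
    exact ctr_posSemidef hP0 (hq i).1
  have hνr : ∀ i, ((r : ℂ) • 1 - ν i).PosSemidef := by
    intro i
    have h3 := ctr_posSemidef hPr (hq i).1
    rw [ctr_sub_left, ctr_smul_left, ctr_one', (hq i).2, one_smul] at h3
    rw [hν]
    exact h3
  have hνlo : ∀ i, ((lo : ℂ) • 1 - ν i).PosSemidef := by
    intro i
    have e : (lo : ℂ) • 1 - ν i = ((r : ℂ) • 1 - ν i) + ((lo - r : ℝ) : ℂ) • 1 := by
      rw [Complex.ofReal_sub, sub_smul]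
      abel
    rw [e]
    exact (hνr i).add (PosSemidef.one.smul (by
      rw [Complex.zero_le_real, hr]
      linarith))
  obtain ⟨E, hE⟩ : ∃ E : ι → Matrix (A × B) (A × B) ℂ,
      E = fun i => P + onA ((lo : ℂ) • 1 - ν i) := ⟨_, rfl⟩
  have hE0 : ∀ i, (E i).PosSemidef := by
    intro i
    rw [hE]
    exact hP0.add ((hνlo i).kronecker PosSemidef.one)
  have hEρ : ∀ i, E i + onA (ν i) = ρ := by
    intro i
    have e : onA ((lo : ℂ) • 1 - ν i) + onA (ν i) =
        (lo : ℂ) • (1 : Matrix (A × B) (A × B) ℂ) := by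
      rw [onA, onA, ← add_kronecker, sub_add_cancel, smul_kronecker, one_kronecker_one]
    rw [hE]
    show P + onA ((lo : ℂ) • 1 - ν i) + onA (ν i) = ρ
    rw [add_assoc, e, hP]
    abel
  have hE1 : ∀ i, (ρ - E i).PosSemidef := by
    intro i
    rw [← hEρ i, add_sub_cancel_left]
    exact (hν0 i).kronecker PosSemidef.one
  obtain ⟨R, hR⟩ : ∃ R, R = cop ι ρ := ⟨_, rfl⟩
  have hρ : ρ.PosSemidef := by
    have h4 : ρ = (ρ - (lo : ℂ) • 1) + (lo : ℂ) • (1 : Matrix _ _ ℂ) := by abel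
    rw [h4]
    exact h1.add (PosSemidef.one.smul (by exact_mod_cast hlo.le))
  have hR0 : R.PosSemidef := by
    rw [hR]
    exact sp_posSemidef fun _ => hρ
  obtain ⟨L, hL⟩ : ∃ L : Matrix ((ι → A) × (ι → B) × (ι → B))
      ((ι → A) × (ι → B) × (ι → B)) ℂ, L = fun p q => ∏ i, (e12 (E i) + e13 P)
        (p.1 i, p.2.1 i, p.2.2 i) (q.1 i, q.2.1 i, q.2.2 i) := ⟨_, rfl⟩
  have hL0 : L.PosSemidef := by
    rw [hL]
    exact (piD_posSemidef (X := fun i => e12 (E i) + e13 P) fun i =>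
      (e12_psd (hE0 i)).add (e13_psd hP0)).submatrix
      (fun (p : (ι → A) × (ι → B) × (ι → B)) (i : ι) =>
        (p.1 i, p.2.1 i, p.2.2 i))
  obtain ⟨W, hW⟩ : ∃ W : Finset (ι) → Matrix ((ι → A) × (ι → B))
      ((ι → A) × (ι → B)) ℂ, W = fun T => VT T E (ctr (cop {j // j ∈ T} P) (margOn T G)) :=
    ⟨_, rfl⟩
  obtain ⟨F, hF⟩ : ∃ F : Finset (ι) → Matrix ((ι → A) × (ι → B))
      ((ι → A) × (ι → B)) ℂ, F = fun T => VT T E (ctr (cop {j // j ∈ T} P) (prodOn T q)) :=
    ⟨_, rfl⟩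
  have hcL : ctrL L G = ∑ T, W T := by
    ext x y
    rw [Matrix.sum_apply, hW]
    simp only [← term_eq]
    simp only [ctrL, hL, Matrix.add_apply, prod_add_ite, Finset.sum_mul]
    have e3 : ∀ c : ι → B, ∑ c' : ι → B, ∑ T : Finset (ι),
        (∏ i, if i ∈ T then e13 P (x.1 i, x.2 i, c i) (y.1 i, y.2 i, c' i) else
          e12 (E i) (x.1 i, x.2 i, c i) (y.1 i, y.2 i, c' i)) * G c' c =
        ∑ T : Finset (ι), ∑ c' : ι → B,
        (∏ i, if i ∈ T then e13 P (x.1 i, x.2 i, c i) (y.1 i, y.2 i, c' i) else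
          e12 (E i) (x.1 i, x.2 i, c i) (y.1 i, y.2 i, c' i)) * G c' c := fun c =>
      Finset.sum_comm
    simp only [e3]
    rw [Finset.sum_comm]
    refine Finset.sum_congr rfl fun T _ => Finset.sum_congr rfl fun c _ =>
      Finset.sum_congr rfl fun c' _ => ?_
    congr 1
    refine Finset.prod_congr rfl fun i _ => ?_
    split_ifs <;> rfl
  have hcM : ctrM L G = ctrL L G := by
    ext x y
    simp only [ctrL, ctrM, hL]
    refine Finset.sum_congr rfl fun c _ => Finset.sum_congr rfl fun c' _ => ?_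
    congr 1
    refine Finset.prod_congr rfl fun i _ => ?_
    rw [Matrix.add_apply, Matrix.add_apply, e12_apply, e12_apply, e13_apply, e13_apply, hE]
    simp only [Matrix.add_apply, onA_apply]
    ring
  have hFR : ∑ T, F T = R := by
    rw [hF]
    simp only [VT_prodOn]
    rw [sum_sp, hR]
    have e : (fun i => E i + onA (ctr P (q i))) = fun _ => ρ := by
      funext i
      rw [← hEρ i, hν]
    rw [e]
    rfl
  have hcp : ∀ T : Finset (ι), (cop {j // j ∈ T} P).PosSemidef := by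
    intro T
    exact (piD_posSemidef (X := fun _ : {j // j ∈ T} => P) fun _ => hP0).submatrix
      (fun (p : ({j // j ∈ T} → A) × ({j // j ∈ T} → B)) (i : {j // j ∈ T}) => (p.1 i, p.2 i))
  have hW0 : ∀ T, (W T).PosSemidef := by
    intro T
    rw [hW]
    exact VT_posSemidef T hE0 (ctr_posSemidef (hcp T) (margOn_posSemidef T hG0))
  have hF0 : ∀ T, (F T).PosSemidef := by
    intro T
    rw [hF]
    exact VT_posSemidef T hE0 (ctr_posSemidef (hcp T) (prodOn_posSemidef T fun i => (hq i).1))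
  obtain ⟨w, hw⟩ : ∃ w : Finset (ι) → ℝ, w = fun T => if T.card < d then 0 else
      (hi / lo - 1) ^ T.card := ⟨_, rfl⟩
  have hrlo : r / lo = hi / lo - 1 := by
    rw [hr, sub_div, div_self hlo.ne']
  have hp0 : 0 ≤ hi / lo - 1 := by
    rw [← hrlo]
    exact div_nonneg hr0 hlo.le
  have hWh : ∀ T, (((g * (hi / lo - 1) ^ T.card : ℝ) : ℂ) • R - W T).PosSemidef := by
    intro T
    rw [hW, hR, ← hrlo]
    exact VT_high T hlo hr0 h1 hE0 hE1 hP0 hPr (margOn_posSemidef T hG0) hg0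
      ((margOn_trace T G).trans hg)
  have hFh : ∀ T, ((((hi / lo - 1) ^ T.card : ℝ) : ℂ) • R - F T).PosSemidef := by
    intro T
    have h3 := VT_high T hlo hr0 h1 hE0 hE1 hP0 hPr (prodOn_posSemidef T fun i => (hq i).1)
      zero_le_one ((prodOn_trace T fun i => (hq i).2).trans Complex.ofReal_one.symm)
    rw [one_mul] at h3
    rw [hF, hR, ← hrlo]
    exact h3
  have hup : ∀ T, (((κ * g : ℝ) : ℂ) • F T + ((g * w T : ℝ) : ℂ) • R - W T).PosSemidef := by
    intro T
    by_cases hc : T.card < d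
    · have h3 := VT_posSemidef T hE0 (ctr_posSemidef (hcp T) (hT T hc).1)
      rw [ctr_sub_right, ctr_smul_right, ctr_smul_right, VT_sub, VT_smul, VT_smul, hg,
        smul_smul, ← Complex.ofReal_mul] at h3
      have e : w T = 0 := by rw [hw]; exact if_pos hc
      rw [e, mul_zero, Complex.ofReal_zero, zero_smul, add_zero, hF, hW]
      exact h3
    · have e : w T = (hi / lo - 1) ^ T.card := by rw [hw]; exact if_neg hc
      rw [e, add_sub_assoc]
      exact ((hF0 T).smul (Complex.zero_le_real.mpr (mul_nonneg (by linarith) hg0))).add (hWh T)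
  have hdn : ∀ T, ((κ : ℂ) • W T - (g : ℂ) • F T + ((g * w T : ℝ) : ℂ) • R).PosSemidef := by
    intro T
    by_cases hc : T.card < d
    · have h3 := VT_posSemidef T hE0 (ctr_posSemidef (hcp T) (hT T hc).2)
      rw [ctr_sub_right, ctr_smul_right, ctr_smul_right, VT_sub, VT_smul, VT_smul, hg] at h3
      have e : w T = 0 := by rw [hw]; exact if_pos hc
      rw [e, mul_zero, Complex.ofReal_zero, zero_smul, add_zero, hF, hW]
      exact h3
    · have e : w T = (hi / lo - 1) ^ T.card := by rw [hw]; exact if_neg hc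
      have h3 := ((hW0 T).smul (Complex.zero_le_real.mpr (zero_le_one.trans hκ))).add
        ((hFh T).smul (Complex.zero_le_real.mpr hg0))
      rw [e]
      refine (congrArg Matrix.PosSemidef ?_).mp h3
      rw [smul_sub, smul_smul, ← Complex.ofReal_mul]
      abel
  have hΔ : ∑ T, w T ≤ 1 / 2 := by
    rw [hw]
    exact tail_le hp0 hd0 hd
  have hU : (((g * (κ + 1 / 2) : ℝ) : ℂ) • R - ctrL L G).PosSemidef := by
    have h3 := (posSemidef_sum Finset.univ fun T _ => hup T).add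
      (hR0.smul (Complex.zero_le_real.mpr (mul_nonneg hg0 (sub_nonneg.mpr hΔ))))
    refine (congrArg Matrix.PosSemidef ?_).mp h3
    rw [Finset.sum_sub_distrib, Finset.sum_add_distrib, ← Finset.smul_sum, ← Finset.sum_smul, hFR,
      ← hcL, ← Complex.ofReal_sum, ← Finset.mul_sum]
    push_cast
    module
  have hD : ((κ : ℂ) • ctrL L G - ((g * (1 / 2) : ℝ) : ℂ) • R).PosSemidef := by
    have h3 := (posSemidef_sum Finset.univ fun T _ => hdn T).add
      (hR0.smul (Complex.zero_le_real.mpr (mul_nonneg hg0 (sub_nonneg.mpr hΔ))))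
    refine (congrArg Matrix.PosSemidef ?_).mp h3
    rw [Finset.sum_add_distrib, Finset.sum_sub_distrib, ← Finset.smul_sum, ← Finset.smul_sum,
      ← Finset.sum_smul, hFR, ← hcL, ← Complex.ofReal_sum, ← Finset.mul_sum]
    push_cast
    module
  have hκ2 : 0 < g * (κ + 1 / 2) := mul_pos hg1 (by linarith)
  have csm : ∀ c : ℂ, ctrL (c • L) G = c • ctrL L G := by
    intro c
    ext x y
    simp only [ctrL, Matrix.smul_apply, smul_eq_mul, Finset.mul_sum, mul_assoc]
  have csm' : ∀ c : ℂ, ctrM (c • L) G = c • ctrM L G := by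
    intro c
    ext x y
    simp only [ctrM, Matrix.smul_apply, smul_eq_mul, Finset.mul_sum, mul_assoc]
  refine ⟨(((g * (κ + 1 / 2))⁻¹ : ℝ) : ℂ) • L, hL0.smul (by exact_mod_cast (inv_pos.mpr hκ2).le),
    ?_, ?_⟩
  · have h3 := hU.smul (Complex.zero_le_real.mpr (inv_pos.mpr hκ2).le)
    rw [csm, ← hR]
    refine (congrArg Matrix.PosSemidef ?_).mp h3
    rw [smul_sub, smul_smul, ← Complex.ofReal_mul, inv_mul_cancel₀ hκ2.ne', Complex.ofReal_one,
      one_smul]
  · have ha : 0 ≤ 3 * κ * (g * (κ + 1 / 2))⁻¹ :=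
      mul_nonneg (by linarith) (inv_pos.mpr hκ2).le
    have hb : 0 ≤ 3 * κ * (g * (κ + 1 / 2))⁻¹ * (g * (1 / 2)) - 1 := by
      have e : 3 * κ * (g * (κ + 1 / 2))⁻¹ * (g * (1 / 2)) - 1 = (κ - 1) / (2 * κ + 1) := by
        have h5 : (2 * κ + 1) ≠ 0 := by positivity
        have h6 : κ + 1 / 2 ≠ 0 := by positivity
        field_simp
        ring
      rw [e]
      exact div_nonneg (by linarith) (by linarith)
    have h3 := (hD.smul (Complex.zero_le_real.mpr ha)).add (hR0.smul (Complex.zero_le_real.mpr hb))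
    rw [csm', hcM, ← hR]
    refine (congrArg Matrix.PosSemidef ?_).mp h3
    rw [smul_sub, smul_smul, smul_smul, smul_smul]
    push_cast
    module

end Vale.Agent.P372.H795
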