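import Vale.Agent.P372.H795.Defs

open Matrix Kronecker
open scoped ComplexOrder

namespace Vale.Agent.P372

/-- The copies in `T` carry `x`, the other ones `z`. -/
def glue {X ι : Type} [DecidableEq ι] (T : Finset ι) (x : {j // j ∈ T} → X)
    (z : {j // j ∉ T} → X) : ι → X :=
  fun j => if h : j ∈ T then x ⟨j, h⟩ else z ⟨j, h⟩

/-- The marginal of `G` on the copies in `T`: the partial trace over the other ones. -/
def margOn {X ι : Type} [Fintype X] [Fintype ι] [DecidableEq ι] (T : Finset ι)
    (G : Matrix (ι → X) (ι → X) ℂ) : Matrix ({j // j ∈ T} → X) ({j // j ∈ T} → X) ℂ :=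
  fun x y => ∑ z, G (glue T x z) (glue T y z)

/-- The product of the operators `q j` on the copies in `T`. -/
def prodOn {X ι : Type} (T : Finset ι) (q : ι → Matrix X X ℂ) :
    Matrix ({j // j ∈ T} → X) ({j // j ∈ T} → X) ℂ :=
  fun x y => ∏ j : {j // j ∈ T}, q j (x j) (y j)

/-- `G` is locally a product: for some states `q j`, the marginal of `G / tr G` on every set `T` of
at most `α n` of the `n` copies lies between `κ⁻¹` times and `κ` times the product of the `q j`,
`j ∈ T`. -/
def LocallyProduct {X ι : Type} [Fintype X] [Fintype ι] [DecidableEq ι] (α κ : ℝ)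
    (G : Matrix (ι → X) (ι → X) ℂ) : Prop :=
  ∃ q : ι → Matrix X X ℂ, (∀ i, (q i).PosSemidef ∧ (q i).trace = 1) ∧
    ∀ T : Finset ι, (T.card : ℝ) ≤ α * Fintype.card ι →
      ((κ : ℂ) • G.trace • prodOn T q - margOn T G).PosSemidef ∧
        ((κ : ℂ) • margOn T G - G.trace • prodOn T q).PosSemidef

/-- The operator `R` on `n` copies is a product of positive operators `Q i` on the blocks
`{j | π j = i}` of a partition of the `n` copies, such that
* the block `i = 0` has at most `M` copies;
* every other block has at most `N` copies, or `Q i` is a code projection, or `i ∈ J` and `Q i` is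
  locally a product, where `J` has at most `S` elements. -/
def FilterBlocks {X : Type} [Fintype X] [DecidableEq X] (P : Matrix X X ℂ → Prop) {n : ℕ}
    (N M S : ℕ) (α κ : ℝ) (R : Matrix (Fin n → X) (Fin n → X) ℂ) : Prop :=
  ∃ (m : ℕ) (π : Fin n → Fin (m + 1)) (J : Finset (Fin (m + 1)))
    (Q : ∀ i, Matrix ({j // π j = i} → X) ({j // π j = i} → X) ℂ),
    Fintype.card {j // π j = 0} ≤ M ∧ J.card ≤ S ∧
      (∀ i, i ≠ 0 → Fintype.card {j // π j = i} ≤ N ∨ CodeProj P (Q i) ∨
        (i ∈ J ∧ LocallyProduct α κ (Q i))) ∧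
      (∀ i, (Q i).PosSemidef) ∧ ∀ p q, R p q = ∏ i, Q i (fun j => p j) (fun j => q j)

/-- `R ≤ G ≤ c R` for such a product `R`. -/
def NearFilterBlocks {X : Type} [Fintype X] [DecidableEq X] (P : Matrix X X ℂ → Prop) {n : ℕ}
    (N M S : ℕ) (α κ c : ℝ) (G : Matrix (Fin n → X) (Fin n → X) ℂ) : Prop :=
  ∃ R, FilterBlocks P N M S α κ R ∧ (G - R).PosSemidef ∧ ((c : ℂ) • R - G).PosSemidef

end Vale.Agent.P372
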