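import Vale.Agent.P372.H795.Blocks2

open Matrix Kronecker
open scoped ComplexOrder MatrixOrder

set_option linter.unusedSectionVars false

namespace Vale.Agent.P372.H795

open Vale.Agent.P372 Vale.Agent.P372.BF Vale.Agent.P372.H23

section swaps

variable {X Y : Type} [Fintype X] [DecidableEq X] [Fintype Y] [DecidableEq Y]

theorem swapComb_eq (s : Fin 4 → ℂ) : (swapComb s : Matrix ((X × Y) × (X × Y)) _ ℂ) =
    sw4 X Y s := by
  ext p q
  simp only [swapComb, sw4, Matrix.add_apply, Matrix.smul_apply, smul_eq_mul, kr, H23.sw,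
    Matrix.one_apply, Prod.mk.injEq]

theorem swapComb_swap (s : Fin 4 → ℂ) : (swapComb s : Matrix ((X × Y) × (X × Y)) _ ℂ).submatrix
    Prod.swap Prod.swap = swapComb s := by
  ext p q
  simp only [submatrix_apply, swapComb, Prod.fst_swap, Prod.snd_swap]
  simp only [and_comm]

theorem swapComb_comp (s : Fin 4 → ℂ) :
    Comp true (swapComb s : Matrix ((X × Y) × (X × Y)) _ ℂ) LocalPair := by
  intro u hu
  have h := LocPair.isSite (u := u) hu s
  obtain ⟨r, hr⟩ := h.tr
  refine ⟨h.unit, u, ⟨r, ?_⟩, ?_, ?_⟩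
  · rw [← hr, ctr_one']
  · rw [swapComb_eq]
    exact h.ctr
  · rw [swapComb_eq]
    exact h.comm

end swaps

section bell

variable {X ι : Type} [Fintype X] [DecidableEq X] [Fintype ι]

theorem errorBasis_transpose {W : ι → Matrix X X ℂ} (h : ErrorBasis W) :
    ErrorBasis fun g => (W g)ᵀ := by
  obtain ⟨h1, h2⟩ := h
  refine ⟨fun g => ⟨?_, ?_⟩, fun g k => ?_⟩
  · have h3 : W g * (W g)ᴴ = 1 := mul_eq_one_comm.mp (h1 g).1
    have h4 := congrArg transpose h3
    rw [transpose_mul, transpose_one] at h4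
    exact h4
  · rcases (h1 g).2 with h3 | ⟨c, h3⟩
    · left
      rw [trace_transpose, h3]
    · right
      refine ⟨c, ?_⟩
      show (W g)ᵀ = _
      rw [h3, transpose_smul, transpose_one]
  · obtain ⟨ζ, hζ⟩ := h2 k g
    refine ⟨ζ, ?_⟩
    show (W g)ᵀ * (W k)ᵀ = ζ • ((W k)ᵀ * (W g)ᵀ)
    rw [← transpose_mul, ← transpose_mul, hζ, transpose_smul]

theorem bellComb_swap (W : ι → Matrix X X ℂ) (p : ι → ℂ) :
    (bellComb W p).submatrix Prod.swap Prod.swap = bellComb (fun g => (W g)ᵀ) p := by
  ext z w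
  simp only [submatrix_apply, bellComb, Prod.fst_swap, Prod.snd_swap, transpose_apply]

theorem bellComb_eq (W : ι → Matrix X X ℂ) (p : ι → ℂ) : bellComb W p =
    ∑ g, p g • vecMulVec (fun z : X × X => W g z.2 z.1) (star fun z : X × X => W g z.2 z.1) := by
  ext z w
  simp only [bellComb, Matrix.sum_apply, Matrix.smul_apply, vecMulVec_apply, Pi.star_apply,
    smul_eq_mul]

theorem phase {Z : Type} [Fintype Z] [DecidableEq Z] [Nonempty Z] {V W : Matrix Z Z ℂ}
    (hV : Vᴴ * V = 1) (hW : Wᴴ * W = 1) {ζ : ℂ} (h : V * W = ζ • (W * V)) : star ζ * ζ = 1 := by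
  have h1 : (V * W)ᴴ * (V * W) = 1 := by
    rw [conjTranspose_mul, Matrix.mul_assoc, ← Matrix.mul_assoc Vᴴ, hV, Matrix.one_mul, hW]
  have h2 : (W * V)ᴴ * (W * V) = 1 := by
    rw [conjTranspose_mul, Matrix.mul_assoc, ← Matrix.mul_assoc Wᴴ, hW, Matrix.one_mul, hV]
  rw [h, conjTranspose_smul, Matrix.smul_mul, Matrix.mul_smul, h2, smul_smul] at h1
  obtain ⟨z⟩ := ‹Nonempty Z›
  have h3 := congrFun (congrFun h1 z) z
  simpa using h3

theorem bellComb_comp {W : ι → Matrix X X ℂ} (hW : ErrorBasis W) (p : ι → ℂ) :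
    Comp false (bellComb W p) fun u => ∃ g, u = W g := by
  obtain ⟨h1, h2⟩ := hW
  rintro _ ⟨k, rfl⟩
  refine ⟨(h1 k).1, (W k)ᵀ, ?_, ?_, ?_⟩
  · rcases (h1 k).2 with h3 | ⟨c, h3⟩
    · exact ⟨0, by rw [h3, zero_smul, zero_smul]⟩
    · by_cases hc : c = 0
      · refine ⟨0, ?_⟩
        rw [h3, hc]
        simp
      · refine ⟨(W k).trace * c⁻¹, ?_⟩
        have e : (W k)ᵀ = c • (1 : Matrix X X ℂ) := by
          rw [h3, transpose_smul, transpose_one]
        rw [e, smul_smul, mul_assoc, inv_mul_cancel₀ hc, mul_one]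
  · choose ζ hζ using fun g => h2 k g
    refine ⟨∑ g, p g * ζ g, ?_⟩
    ext x x'
    have e1 : ∀ g, ∑ y, ∑ y', W g y x * star (W g y' x') * W k y' y = ζ g * W k x' x := by
      intro g
      have e2 : (W g)ᴴ * W k * W g = ζ g • W k := by
        rw [Matrix.mul_assoc, hζ g, Matrix.mul_smul, ← Matrix.mul_assoc, (h1 g).1, Matrix.one_mul]
      have e3 := congrFun (congrFun e2 x') x
      rw [Matrix.smul_apply, smul_eq_mul, Matrix.mul_apply] at e3
      rw [← e3]
      refine Finset.sum_congr rfl fun y _ => ?_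
      rw [Matrix.mul_apply, Finset.sum_mul]
      refine Finset.sum_congr rfl fun y' _ => ?_
      rw [conjTranspose_apply]
      ring
    rw [Matrix.smul_apply, transpose_apply, smul_eq_mul]
    simp only [BF.ctr, bellComb, Finset.sum_mul]
    calc ∑ y, ∑ y', ∑ g, p g * (W g y x * star (W g y' x')) * W k y' y
        = ∑ g, p g * ∑ y, ∑ y', W g y x * star (W g y' x') * W k y' y := by
          simp only [Finset.mul_sum]
          rw [Finset.sum_comm]
          rw [show (∑ y', ∑ y, ∑ g, p g * (W g y x * star (W g y' x')) * W k y' y) =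
            ∑ y', ∑ g, ∑ y, p g * (W g y x * star (W g y' x')) * W k y' y from
            Finset.sum_congr rfl fun _ _ => Finset.sum_comm]
          rw [Finset.sum_comm]
          refine Finset.sum_congr rfl fun g _ => ?_
          rw [Finset.sum_comm]
          refine Finset.sum_congr rfl fun y _ => Finset.sum_congr rfl fun y' _ => ?_
          ring
      _ = _ := by
          simp only [e1]
          refine Finset.sum_congr rfl fun g _ => ?_
          ring
  · rcases isEmpty_or_nonempty X with hX | hX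
    · show _ * _ = _ * _
      ext z w
      exact (IsEmpty.false z.1).elim
    rw [bellComb_eq]
    refine Commute.sum_right _ _ _ fun g _ => Commute.smul_right ?_ _
    obtain ⟨ζ, hζ⟩ := h2 g k
    have hp := phase (h1 g).1 (h1 k).1 hζ
    have hk : W k * (W k)ᴴ = 1 := mul_eq_one_comm.mp (h1 k).1
    have e1 : (W k)ᴴ * W g * W k = ζ • W g := by
      rw [Matrix.mul_assoc, hζ, Matrix.mul_smul, ← Matrix.mul_assoc, (h1 k).1, Matrix.one_mul]
    have e2 : W k * W g * (W k)ᴴ = star ζ • W g := by
      have e3 : W g = ζ • (W k * W g * (W k)ᴴ) := by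
        calc W g = W g * W k * (W k)ᴴ := by rw [Matrix.mul_assoc, hk, Matrix.mul_one]
          _ = _ := by rw [hζ, Matrix.smul_mul]
      calc W k * W g * (W k)ᴴ = (star ζ * ζ) • (W k * W g * (W k)ᴴ) := by rw [hp, one_smul]
        _ = star ζ • (ζ • (W k * W g * (W k)ᴴ)) := by rw [smul_smul]
        _ = _ := by rw [← e3]
    have l1 : ((W k)ᵀ ⊗ₖ tw false (W k)) *ᵥ (fun z : X × X => W g z.2 z.1) =
        ζ • fun z : X × X => W g z.2 z.1 := by
      funext z
      have e4 := congrFun (congrFun e1 z.2) z.1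
      rw [Matrix.smul_apply, smul_eq_mul, Matrix.mul_apply] at e4
      rw [Pi.smul_apply, smul_eq_mul, ← e4, mulVec, dotProduct, Fintype.sum_prod_type]
      refine Finset.sum_congr rfl fun x _ => ?_
      rw [Matrix.mul_apply, Finset.sum_mul]
      refine Finset.sum_congr rfl fun y _ => ?_
      rw [kroneckerMap_apply, transpose_apply]
      show W k x z.1 * (W k)ᴴ z.2 y * W g y x = _
      ring
    have l2 : (star fun z : X × X => W g z.2 z.1) ᵥ* ((W k)ᵀ ⊗ₖ tw false (W k)) =
        ζ • star fun z : X × X => W g z.2 z.1 := by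
      funext z
      have e4 := congrArg star (congrFun (congrFun e2 z.2) z.1)
      rw [Matrix.smul_apply, smul_eq_mul, star_mul', star_star, Matrix.mul_apply, star_sum] at e4
      rw [Pi.smul_apply, smul_eq_mul, Pi.star_apply, ← e4, vecMul, dotProduct,
        Fintype.sum_prod_type]
      refine Finset.sum_congr rfl fun x _ => ?_
      rw [Matrix.mul_apply, Finset.sum_mul, star_sum]
      refine Finset.sum_congr rfl fun y _ => ?_
      rw [kroneckerMap_apply, transpose_apply, conjTranspose_apply, Pi.star_apply]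
      show star (W g y x) * (W k z.1 x * (W k)ᴴ y z.2) = _
      rw [conjTranspose_apply, star_mul', star_mul', star_star]
      ring
    show _ * _ = _ * _
    rw [mul_vecMulVec, vecMulVec_mul, l1, l2, smul_vecMulVec, vecMulVec_smul]

end bell

end Vale.Agent.P372.H795
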